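import Mathlib

/-!
A cocycle built from a fibrewise comparison of lifted edges detects the eigenvalue `2`.
-/

open CategoryTheory Limits Simplicial Opposite

namespace Vale.Agent.P103

noncomputable abbrev RR : ModuleCat.{0} ℝ := ModuleCat.of ℝ ℝ

noncomputable def coch (X : SSet.{0}) {n : ℕ} (c : X _⦋n⦌ → ℝ) : (X.chainComplex RR).X n ⟶ RR :=
  Cofan.IsColimit.desc (X.isColimitChainComplexXCofan RR n) fun x => c x • 𝟙 RR

@[reassoc (attr := simp)]
theorem ι_coch (X : SSet.{0}) {n : ℕ} (c : X _⦋n⦌ → ℝ) (x : X _⦋n⦌) :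
    X.ιChainComplex x ≫ coch X c = c x • 𝟙 RR :=
  Cofan.IsColimit.fac (X.isColimitChainComplexXCofan RR n) (fun x => c x • 𝟙 RR) x

theorem ι_d_coch (X : SSet.{0}) {n : ℕ} (c : X _⦋n⦌ → ℝ) (x : X _⦋n + 1⦌) :
    X.ιChainComplex x ≫ (X.chainComplex RR).d (n + 1) n ≫ coch X c =
      (∑ i : Fin (n + 2), (-1) ^ i.val * c (X.δ i x)) • 𝟙 RR := by
  rw [SSet.ιChainComplex_d_assoc, Preadditive.sum_comp, Finset.sum_smul]
  refine Finset.sum_congr rfl fun i _ => ?_
  rw [Preadditive.zsmul_comp, ι_coch, mul_smul, ← Int.cast_smul_eq_zsmul ℝ]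
  simp

theorem cancel_surj {X Y : SSet.{0}} (p : X ⟶ Y) {n : ℕ}
    (hp : Function.Surjective (p.app (op ⦋n⦌))) {a b : (Y.chainComplex RR).X n ⟶ RR}
    (h : (SSet.chainComplexMap p RR).f n ≫ a = (SSet.chainComplexMap p RR).f n ≫ b) : a = b := by
  refine SSet.chainComplex_hom_ext fun y => ?_
  obtain ⟨x, rfl⟩ := hp y
  rw [← SSet.ι_chainComplexMap_f, Category.assoc, h, Category.assoc]

theorem two_mem_spectrum {X Y : SSet.{0}} (p : X ⟶ Y) (F : X ⟶ X) (f : Y ⟶ Y)
    (hF : F ≫ p = p ≫ f) (hp : ∀ n, Function.Surjective (p.app (op ⦋n⦌)))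
    (V : X _⦋1⦌ → X _⦋1⦌ → ℝ)
    (h1 : ∀ a b c, p.app _ a = p.app _ b → p.app _ b = p.app _ c → V a c = V a b + V b c)
    (h2 : ∀ a b : X _⦋2⦌, p.app _ a = p.app _ b →
      ∑ i : Fin 3, (-1) ^ i.val * V (X.δ i a) (X.δ i b) = 0)
    (h3 : ∀ a b, p.app _ a = p.app _ b → V (F.app _ a) (F.app _ b) = 2 * V a b)
    (a b : X _⦋2⦌) (h4 : ∀ i, p.app _ (X.δ i a) = p.app _ (X.δ i b))
    (h5 : ∑ i : Fin 3, (-1) ^ i.val * V (X.δ i a) (X.δ i b) ≠ 0) :
    (2 : ℝ) ∈ spectrum ℝ (show Module.End ℝ _ from (SSet.homologyMap f RR 2).hom) := by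
  choose L hL using hp
  have hp : ∀ n, Function.Surjective (p.app (op ⦋n⦌)) := fun n y => ⟨_, hL n y⟩
  have hFp : ∀ n (x : X _⦋n⦌), p.app _ (F.app _ x) = f.app _ (p.app _ x) := fun n x =>
    congr($(hF).app (op ⦋n⦌) x)
  have nat : ∀ {n} (i : Fin (n + 2)) (x : X _⦋n + 1⦌), p.app _ (X.δ i x) = Y.δ i (p.app _ x) :=
    fun i x => SSet.δ_naturality_apply p i x
  let W : X _⦋1⦌ → ℝ := fun e => V e (L 1 (p.app _ e))
  have hW : ∀ e e', p.app _ e = p.app _ e' → W e = V e e' + W e' := fun e e' h => by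
    simp only [W]
    rw [h, h1 e e' _ h (hL _ _).symm]
  let c := coch Y fun y : Y _⦋2⦌ => ∑ i : Fin 3, (-1) ^ i.val * W (X.δ i (L 2 y))
  have hc : (SSet.chainComplexMap p RR).f 2 ≫ c = (X.chainComplex RR).d 2 1 ≫ coch X W := by
    refine SSet.chainComplex_hom_ext fun x => ?_
    rw [SSet.ι_chainComplexMap_f_assoc, ι_coch, ι_d_coch]
    congr 1
    rw [← zero_add (∑ i : Fin 3, _), ← h2 x _ (hL 2 (p.app _ x)).symm, ← Finset.sum_add_distrib]
    refine Finset.sum_congr rfl fun i _ => ?_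
    rw [← mul_add, ← hW _ _ (by rw [nat, nat, hL])]
  have hd : (Y.chainComplex RR).d 3 2 ≫ c = 0 := cancel_surj p (hp 3) (by
    rw [HomologicalComplex.Hom.comm_assoc, hc, HomologicalComplex.d_comp_d_assoc]
    simp)
  let k := coch Y fun e : Y _⦋1⦌ => V (F.app _ (L 1 e)) (L 1 (f.app _ e))
  have hk : (SSet.chainComplexMap F RR).f 1 ≫ coch X W =
      (2 : ℝ) • coch X W + (SSet.chainComplexMap p RR).f 1 ≫ k := by
    refine SSet.chainComplex_hom_ext fun x => ?_
    rw [SSet.ι_chainComplexMap_f_assoc, Preadditive.comp_add, Linear.comp_smul,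
      SSet.ι_chainComplexMap_f_assoc, ι_coch, ι_coch, ι_coch, smul_smul, ← add_smul]
    congr 1
    simp only [W]
    rw [← h3 _ _ (hL 1 _).symm, hFp, ← h1 _ _ _ (by rw [hFp, hFp, hL]) (by rw [hFp, hL, hL])]
  have hf : (SSet.chainComplexMap f RR).f 2 ≫ c - (2 : ℝ) • c =
      (Y.chainComplex RR).d 2 1 ≫ k := cancel_surj p (hp 2) (by
    have e : (SSet.chainComplexMap p RR).f 2 ≫ (SSet.chainComplexMap f RR).f 2 =
        (SSet.chainComplexMap F RR).f 2 ≫ (SSet.chainComplexMap p RR).f 2 := by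
      rw [← HomologicalComplex.comp_f, ← HomologicalComplex.comp_f, ← Functor.map_comp,
        ← Functor.map_comp, hF]
    rw [Preadditive.comp_sub, Linear.comp_smul, reassoc_of% e, hc,
      HomologicalComplex.Hom.comm_assoc, hk, HomologicalComplex.Hom.comm_assoc,
      Preadditive.comp_add, Linear.comp_smul, add_sub_cancel_left])
  let φ := (Y.chainComplex RR).homologyι 2 ≫ (Y.chainComplex RR).descOpcycles c 3 (by simp) hd
  have hφ : SSet.homologyMap f RR 2 ≫ φ = (2 : ℝ) • φ := by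
    have e : HomologicalComplex.opcyclesMap (SSet.chainComplexMap f RR) 2 ≫
        (Y.chainComplex RR).descOpcycles c 3 (by simp) hd =
        (2 : ℝ) • (Y.chainComplex RR).descOpcycles c 3 (by simp) hd +
          (Y.chainComplex RR).fromOpcycles 2 1 ≫ k := by
      rw [← cancel_epi ((Y.chainComplex RR).pOpcycles 2), HomologicalComplex.p_opcyclesMap_assoc,
        Preadditive.comp_add, Linear.comp_smul, HomologicalComplex.p_descOpcycles,
        HomologicalComplex.p_fromOpcycles_assoc, ← hf, add_sub_cancel]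
    simp only [φ]
    rw [HomologicalComplex.homologyι_naturality_assoc, e, Preadditive.comp_add, Linear.comp_smul,
      HomologicalComplex.homologyι_comp_fromOpcycles_assoc, zero_comp, add_zero]
  have hz : (Y.ιChainComplex (R := RR) (p.app _ a) - Y.ιChainComplex (p.app _ b)) ≫
      (Y.chainComplex RR).d 2 1 = 0 := by
    simp only [Preadditive.sub_comp, SSet.ιChainComplex_d, ← nat, h4, sub_self]
  have h0 : φ ≠ 0 := fun h => h5 (by
    have e : (Y.chainComplex RR).liftCycles _ 1 (by simp) hz ≫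
        (Y.chainComplex RR).homologyπ 2 ≫ φ = 0 := by simp [h]
    simp only [φ] at e
    rw [HomologicalComplex.homology_π_ι_assoc, HomologicalComplex.liftCycles_i_assoc,
      HomologicalComplex.p_descOpcycles, Preadditive.sub_comp, ← SSet.ι_chainComplexMap_f,
      ← SSet.ι_chainComplexMap_f, Category.assoc, Category.assoc, hc, ι_d_coch, ι_d_coch,
      ← sub_smul, ← Finset.sum_sub_distrib] at e
    have e1 := congr($(e).hom 1)
    simp only [ModuleCat.hom_smul, LinearMap.smul_apply, ModuleCat.hom_id, LinearMap.id_apply,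
      smul_eq_mul, mul_one, ModuleCat.hom_zero, LinearMap.zero_apply] at e1
    rw [← e1]
    refine Finset.sum_congr rfl fun i _ => ?_
    rw [hW _ _ (h4 i)]
    ring)
  rw [spectrum.mem_iff]
  intro hu
  refine h0 (ModuleCat.hom_ext (LinearMap.ext fun x => ?_))
  obtain ⟨y, rfl⟩ := ((Module.End.isUnit_iff _).1 hu).2 x
  have e := congr($(hφ).hom y)
  simp only [ModuleCat.hom_comp, LinearMap.comp_apply, ModuleCat.hom_smul,
    LinearMap.smul_apply] at e
  simp [e]

end Vale.Agent.P103
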