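import Vale.Agent.P103.Hom

/-!
The total advance of the clock is bounded: easy classes of orbits.
-/

open Complex Real Metric Finset
open scoped ComplexConjugate

namespace Vale.Agent.P103

theorem y_le (m : M) : |m.2.2.1 5| ≤ 1 := by
  simpa using (PiLp.norm_apply_le m.2.2.1 5).trans (norm_eq_of_mem_sphere m.2.2).le

theorem kk_pos : 0 < kk := by unfold kk; positivity

theorem mid_nn (m : M) : 0 ≤ kk * (bb (co m).2.1 * (co m).2.1) :=
  mul_nonneg kk_pos.le (mul_nonneg (ok m).bb0 (ok m).s0)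

theorem adv_ge (m : M) : zn aa m.2.1 ≤ adv m := by
  rw [adv]
  linarith [mid_nn m, (abs_le.1 (y_le m)).2]

theorem adv_nn (m : M) : 0 ≤ adv m := (aa_nn _).trans (adv_ge m)

theorem adv_le (m : M) : adv m ≤ 3 / 2 := by
  have h1 : bb (co m).2.1 * (co m).2.1 ≤ 1 * 2 :=
    mul_le_mul (ok m).bb1 (ok m).s2 (ok m).s0 zero_le_one
  have h2 : kk ≤ 1 := by norm_num [kk]
  have h3 := mul_le_mul h2 h1 (mul_nonneg (ok m).bb0 (ok m).s0) (by norm_num)
  have h4 : zn aa m.2.1 ≤ 1 := aa_le _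
  rw [adv]
  linarith [(abs_le.1 (y_le m)).1]

def Bd (x : M) (B : ℝ) : Prop := ∀ n, ∑ i ∈ range n, adv (ff^[i] x) ≤ B

theorem Bd.mono {x : M} {B B' : ℝ} (h : Bd x B) (h' : B ≤ B') : Bd x B' := fun n => (h n).trans h'

theorem Bd.step {x : M} {B : ℝ} (h : Bd (ff x) B) : Bd x (B + 2) := by
  rintro (_ | n)
  · have := h 0
    simp only [range_zero, sum_empty] at *
    linarith
  · have := h n
    have := adv_le x
    simp only [sum_range_succ', Function.iterate_succ_apply, Function.iterate_zero_apply] at *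
    linarith

theorem run {J : M → ℝ → Prop} {U B : ℝ} (hB : 0 ≤ B)
    (h : ∀ x u, J x u → u ≤ U ∧ (Bd x B ∨ J (ff x) (u + adv x))) {x : M} {u : ℝ} (hx : J x u) :
    Bd x (B + U - u) := by
  intro n
  induction n generalizing x u with
  | zero =>
    have := (h x u hx).1
    simp only [range_zero, sum_empty]
    linarith
  | succ n ih =>
    obtain ⟨h1, h2 | h2⟩ := h x u hx
    · linarith [h2 (n + 1)]
    · have := ih h2
      simp only [sum_range_succ', Function.iterate_succ_apply, Function.iterate_zero_apply]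
      linarith

def Cl (x : M) (u : ℝ) : Prop := x.2.1 = Circle.exp (π / 20 * u)

theorem Cl.step {x : M} {u : ℝ} (h : Cl x u) : Cl (ff x) (u + adv x) := by
  rw [Cl, mul_add, Circle.exp_add, ← h]
  rfl

theorem Cl.zn_eq {x : M} {u : ℝ} (h : Cl x u) (h1 : -20 < u) (h2 : u ≤ 20) (g : ℝ → ℝ) :
    zn g x.2.1 = g u := by
  rw [zn, h, Circle.arg_exp (by nlinarith [pi_pos]) (by nlinarith [pi_pos])]
  congr 1
  field_simp

theorem Cl.aa_le {x : M} {u : ℝ} (h : Cl x u) : zn aa x.2.1 ≤ |u| := by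
  by_cases h1 : 1 ≤ |u|
  · exact (P103.aa_le _).trans h1
  · have := abs_lt.1 (not_le.1 h1)
    rw [h.zn_eq (by linarith) (by linarith)]
    exact aa_abs u

theorem exists_cl (x : M) (c : ℝ) : ∃ u, Cl x u ∧ c - 40 ≤ u ∧ u ≤ c := by
  have h := toIocMod_mem_Ioc (show (0 : ℝ) < 40 by norm_num) (c - 40) (arg x.2.1 * (20 / π))
  refine ⟨_, ?_, h.1.le, by linarith [h.2]⟩
  rw [Cl, ← Circle.exp_arg x.2.1, Circle.exp_eq_exp, toIocMod]
  refine ⟨toIocDiv (show (0 : ℝ) < 40 by norm_num) (c - 40) (arg x.2.1 * (20 / π)), ?_⟩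
  rw [Circle.exp_arg, zsmul_eq_mul]
  field_simp
  ring

def Stop (x : M) : Prop := (co x).1 = 0 ∧ (co x).2.2.2 = 0 ∧ x.2.2.1 5 = 1

theorem inj_zero (e : ℕ) (v : ℂ) : inj e (v, 0) = 0 := by
  have : chi 0 = 0 := by_contra fun h => by linarith [(chi_ne h).1]
  simp [inj, term, this]

theorem ff_zero {x : M} (h : mu (co x) = 0 ∨ (co x).2.2.2 = 0)
    (h1 : gam (co x).2.1 * (co x).2.2.1.2.1 * bb (co x).2.1 = 0) :
    (co (ff x)).2.2.2 = 0 ∧ (ff x).2.2.1 5 = 1 ∧ EE (co x) = 0 := by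
  have a1 : t1 (co x) = 0 := by
    rw [t1]
    rcases h with h | h <;> simp only [h, Prod.fst_zero] <;> linear_combination (1 / 5) ^ 10 * h1
  have a2 : z1 (co x) = 0 := by rcases h with h | h <;> simp [z1, a1, inj_zero, h]
  have a3 : w1 (co x) = 0 := by rcases h with h | h <;> simp [w1, a1, inj_zero, h]
  refine ⟨Prod.ext ((ff_t x).trans a1) (Prod.ext ((ff_z x).trans a2) ((ff_w x).trans a3)), ?_, ?_⟩
  · simp [ff_y, rr, a1, a2, a3]
  · rcases h with h | h <;> simp [EE, h]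

theorem Stop.cases {x : M} (h : Stop x) : (co x).2.1 = 0 ∨ (co x).2.1 = 2 := by
  have := (ok x).on
  rw [h.1, norm_zero, zero_pow two_ne_zero, eq_comm, mul_eq_zero] at this
  exact this.imp id fun h => by linarith

theorem Stop.step {x : M} (h : Stop x) : Stop (ff x) := by
  have h1 := ff_zero (Or.inr h.2.1) (by
    rcases h.cases with h | h
    · rw [h, gam, sT0 (by norm_num)]
      ring
    · simp [h, bb])
  exact ⟨by simp [ff_xi, PP, h.1, h1.2.2], h1.1, h1.2.1⟩

theorem Stop.adv {x : M} (h : Stop x) : adv x = zn aa x.2.1 := by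
  rcases h.cases with h1 | h1 <;> simp [P103.adv, h1, bb, h.2.2]

theorem Stop.bd {x : M} (h : Stop x) : Bd x 40 := by
  obtain ⟨u, h1, h2, h3⟩ := exists_cl x 0
  refine (run (J := fun x u => Stop x ∧ Cl x u ∧ u ≤ 0) (U := 0) le_rfl
    (fun x u ⟨a1, a2, a3⟩ => ⟨a3, Or.inr ⟨a1.step, a2.step, ?_⟩⟩) ⟨h, h1, h3⟩).mono (by linarith)
  have := a2.aa_le
  rw [abs_of_nonpos a3, ← a1.adv] at this
  linarith

theorem esc_bd {x : M} (h : 10 ^ 6 * (co x).2.1 < 2) : Bd x 44 := by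
  have h1 : gam (co (ff x)).2.1 = 0 := by
    have a1 := (ok x).s0
    have a2 : ‖EE (co x)‖ ≤ 512000 := by
      have := (ok x).mu_z
      have b0 : 0 ≤ be (co x).2.2.2.1 := sT_nn _
      have b1 : be (co x).2.2.2.1 ≤ 1 := sT_le _
      have b2 := (ok x).mu0
      rw [EE, norm_mul, norm_real, Real.norm_of_nonneg (by positivity)]
      nlinarith [mul_nonneg b2 (norm_nonneg (co x).2.2.2.2.1)]
    have a3 := (abs_le.1 (abs_re_le_norm ((co x).1 ^ 2 * conj (EE (co x))))).1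
    rw [norm_mul, norm_pow, (ok x).on, norm_conj] at a3
    have a4 : ‖EE (co x)‖ * (co x).2.1 ≤ 1.1 := by nlinarith
    have a5 : 1 / 2 ≤ DD (co x) := by
      rw [DD]
      nlinarith [mul_nonneg (norm_nonneg (EE (co x))) a1]
    have a6 := pow_le_one₀ (n := 2) (gam_nn (co x).2.1) (gam_le _)
    refine sT0 ?_
    rw [ff_s, sub_nonpos, ← mul_div_assoc, div_le_one (ok x).den_pos, den]
    nlinarith [mul_nonneg (sq_nonneg (co x).2.1) (sq_nonneg (gam (co x).2.1)),
      mul_le_mul_of_nonneg_left a6 (sq_nonneg (co x).2.1)]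
  have h2 := ff_zero (x := ff x) (Or.inl (by simp [mu, h1])) (by simp [h1])
  have h3 : Stop (ff (ff x)) := ⟨by simp [ff_xi, h1], h2.1, h2.2.1⟩
  exact h3.bd.step.step.mono (by norm_num)

end Vale.Agent.P103
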