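import Mathlib

/-!
A criterion for zero topological entropy.
-/

open Finset Filter Topology Uniformity
open scoped Classical

namespace Vale.Agent.P103

theorem card_small {A : Type*} (s : Finset A) (k : ℕ) :
    (s.powerset.filter fun t => t.card ≤ k).card ≤ (k + 1) * (s.card + 1) ^ k := by
  have h : (s.powerset.filter fun t => t.card ≤ k) ⊆
      (range (k + 1)).biUnion fun i => powersetCard i s := fun t ht => by
    simp only [mem_filter, mem_powerset, mem_biUnion, mem_range, mem_powersetCard] at ht ⊢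
    exact ⟨_, Nat.lt_succ_of_le ht.2, ht.1, rfl⟩
  refine (card_le_card h).trans (card_biUnion_le.trans ?_)
  refine (sum_le_card_nsmul _ _ ((s.card + 1) ^ k) fun i hi => ?_).trans (by simp)
  rw [card_powersetCard]
  exact (Nat.choose_le_pow _ _).trans ((Nat.pow_le_pow_left (Nat.le_succ _) _).trans
    (Nat.pow_le_pow_right (Nat.succ_pos _) (Nat.lt_succ_iff.1 (mem_range.1 hi))))

theorem growth_poly (a c k : ℕ) (u : ℕ → ℕ∞) (hu : ∀ n, u n ≤ (a * (n * c + 1) ^ k : ℕ)) :
    ExpGrowth.expGrowthSup (fun n => (u n : ENNReal)) ≤ 0 := by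
  refine ExpGrowth.expGrowthSup_le_iff.2 fun b hb => ?_
  obtain ⟨r, hr0, hr⟩ := EReal.lt_iff_exists_real_btwn.1 hb
  have hr1 : 0 < r := by exact_mod_cast hr0
  have h1 := (tendsto_pow_const_div_const_pow_of_one_lt k (Real.one_lt_exp_iff.2 hr1)).eventually
    (gt_mem_nhds (show (0 : ℝ) < 1 / (a * (c + 1) ^ k + 1) by positivity))
  filter_upwards [h1, eventually_ge_atTop 1] with n h2 h3
  have h4 : ((a * (n * c + 1) ^ k : ℕ) : ℝ) ≤ Real.exp (r * n) := by
    rw [div_lt_div_iff₀ (by positivity) (by positivity), ← Real.exp_nat_mul, mul_comm (n : ℝ) r]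
      at h2
    have h5 : (1 : ℝ) ≤ n := by exact_mod_cast h3
    have h6 : ((n : ℝ) * c + 1) ^ k ≤ (n * (c + 1)) ^ k :=
      pow_le_pow_left₀ (by positivity) (by linarith) _
    rw [mul_pow] at h6
    push_cast
    nlinarith [mul_le_mul_of_nonneg_left h6 (Nat.cast_nonneg (α := ℝ) a), pow_pos (lt_of_lt_of_le one_pos h5) k]
  calc (u n : ENNReal) ≤ ((a * (n * c + 1) ^ k : ℕ) : ENNReal) := by exact_mod_cast hu n
    _ = ENNReal.ofReal ((a * (n * c + 1) ^ k : ℕ) : ℝ) := (ENNReal.ofReal_natCast _).symm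
    _ ≤ ENNReal.ofReal (Real.exp (r * n)) := ENNReal.ofReal_le_ofReal h4
    _ = EReal.exp ((r * n : ℝ) : EReal) := (EReal.exp_coe _).symm
    _ ≤ EReal.exp (b * n) := by
      refine EReal.exp_monotone ?_
      rw [EReal.coe_mul]
      exact mul_le_mul_of_nonneg_right hr.le (by positivity)

theorem entropy_zero {X : Type*} [MetricSpace X] [CompactSpace X] {f : X → X} (hf : Continuous f)
    {φ : X → ℝ} (hφ : Continuous φ) (h0 : ∀ x, 0 ≤ φ x) {B : ℝ}
    (hB : ∀ x n, ∑ i ∈ range n, φ (f^[i] x) ≤ B) {P S : X} (hPS : P ≠ S) (hP : f P = P)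
    (hS : f S = S) (hF : ∀ x, φ x = 0 → x = P ∨ x = S) :
    Dynamics.coverEntropy f Set.univ = 0 := by
  refine le_antisymm (iSup₂_le fun U hU => ?_) (Dynamics.coverEntropy_nonneg _ ⟨P, trivial⟩)
  obtain ⟨ε, hε, hU⟩ := Metric.mem_uniformity_dist.1 hU
  obtain ⟨N, hN, hc⟩ := Metric.totallyBounded_iff.1 (isCompact_univ (X := X)).totallyBounded
    (ε / 2) (by positivity)
  have hc1 : ∀ x, ∃ y ∈ N, dist x y < ε / 2 := fun x => by simpa using hc (Set.mem_univ x)
  choose c c1 c2 using hc1
  have hd := dist_pos.2 hPS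
  set r := min (ε / 2) (dist P S / 2) with hr
  have r0 : 0 < r := by positivity
  let lab : X → X := fun y => if dist y P < r then P else if dist y S < r then S else c y
  let A : Finset X := insert P (insert S hN.toFinset)
  have l1 : ∀ y, lab y ∈ A := fun y => by
    simp only [lab, A]
    split_ifs <;> simp [c1]
  have l2 : ∀ y, dist y (lab y) < ε / 2 := fun y => by
    simp only [lab]
    split_ifs with h1 h2
    exacts [h1.trans_le (min_le_left _ _), h2.trans_le (min_le_left _ _), c2 y]
  have l3 : ∀ y, dist y S < r → lab y = S := fun y h => by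
    have := dist_triangle_left P S y
    have h2 := min_le_right (ε / 2) (dist P S / 2)
    simp only [lab]
    rw [if_neg (by linarith), if_pos h]
  let K : Set X := ((Metric.ball P r ∩ f ⁻¹' Metric.ball P r) ∪
    (Metric.ball S r ∩ f ⁻¹' Metric.ball S r))ᶜ
  have hK : IsCompact K := (IsOpen.isClosed_compl ((Metric.isOpen_ball.inter
    (Metric.isOpen_ball.preimage hf)).union (Metric.isOpen_ball.inter
    (Metric.isOpen_ball.preimage hf)))).isCompact
  obtain ⟨η, η0, hη⟩ := hK.exists_forall_le' hφ.continuousOn (a := 0) fun x hx =>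
    (h0 x).lt_of_ne' fun h => hx (by rcases hF x h with rfl | rfl <;> simp [hP, hS, r0])
  have l4 : ∀ y, lab (f y) ≠ lab y → η ≤ φ y := fun y h => hη y (by
    rintro (⟨h1, h2⟩ | ⟨h1, h2⟩)
    · exact h ((if_pos h2).trans (if_pos h1).symm)
    · exact h ((l3 _ h2).trans (l3 _ h1).symm))
  obtain ⟨k, hk⟩ := exists_nat_ge (B / η)
  refine growth_poly (A.card * (k + 1)) A.card k _ fun n => ?_
  let ch : X → Finset ℕ := fun x => (range n).filter fun i => lab (f (f^[i] x)) ≠ lab (f^[i] x)
  let enc : X → X × Finset (ℕ × X) := fun x =>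
    (lab x, (ch x).image fun i => (i, lab (f (f^[i] x))))
  have e1 : ∀ x, enc x ∈ A ×ˢ ((range n ×ˢ A).powerset.filter fun t => t.card ≤ k) := fun x => by
    simp only [enc, mem_product, mem_filter, mem_powerset]
    refine ⟨l1 x, fun p hp => ?_, card_image_le.trans ?_⟩
    · obtain ⟨i, hi, rfl⟩ := mem_image.1 hp
      exact mem_product.2 ⟨(mem_filter.1 hi).1, l1 _⟩
    · have h1 : (ch x).card • η ≤ B := (card_nsmul_le_sum _ _ _ fun i hi =>
        l4 _ (mem_filter.1 hi).2).trans ((sum_le_sum_of_subset_of_nonneg (filter_subset _ _)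
          fun i _ _ => h0 _).trans (hB x n))
      rw [nsmul_eq_mul, ← le_div_iff₀ η0] at h1
      exact_mod_cast h1.trans hk
  have e2 : ∀ x y, enc x = enc y → ∀ i ≤ n, lab (f^[i] x) = lab (f^[i] y) := by
    have k1 : ∀ x y, enc x = enc y → ∀ i ∈ ch x, lab (f (f^[i] x)) = lab (f (f^[i] y)) := by
      intro x y h i hi
      have h1 : (i, lab (f (f^[i] x))) ∈ (enc y).2 := h ▸ mem_image_of_mem _ hi
      obtain ⟨j, _, h2⟩ := mem_image.1 h1
      obtain ⟨rfl, h3⟩ := Prod.mk.inj h2
      exact h3.symm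
    intro x y h i
    induction i with
    | zero => exact fun _ => congrArg Prod.fst h
    | succ i ih =>
      intro hi
      rw [Function.iterate_succ_apply', Function.iterate_succ_apply']
      by_cases h1 : i ∈ ch x
      · exact k1 x y h i h1
      by_cases h2 : i ∈ ch y
      · exact (k1 y x h.symm i h2).symm
      simp only [ch, mem_filter, mem_range, not_and, not_not] at h1 h2
      rw [h1 hi, h2 hi, ih (Nat.le_of_succ_le hi)]
  haveI : Nonempty X := ⟨P⟩
  have hcov : Dynamics.IsDynCoverOf f Set.univ U n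
      ((A ×ˢ ((range n ×ˢ A).powerset.filter fun t => t.card ≤ k)).image
        (Function.invFun enc) : Finset X) := fun x _ => by
    refine ⟨Function.invFun enc (enc x), mem_coe.2 (mem_image_of_mem _ (e1 x)), ?_⟩
    refine Dynamics.mem_dynEntourage.2 fun i hi => hU ?_
    have h1 := e2 _ _ (Function.invFun_eq (f := enc) ⟨x, rfl⟩) i hi.le
    have h2 := l2 (f^[i] x)
    have h3 := l2 (f^[i] (Function.invFun enc (enc x)))
    rw [h1] at h3
    linarith [dist_triangle_right (f^[i] x) (f^[i] (Function.invFun enc (enc x))) (lab (f^[i] x))]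
  refine hcov.coverMincard_le_card.trans (Nat.cast_le.2 (card_image_le.trans ?_))
  rw [card_product, mul_assoc]
  refine Nat.mul_le_mul_left _ ((card_small _ k).trans (le_of_eq ?_))
  rw [card_product, card_range]

end Vale.Agent.P103
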