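import Vale.Agent.P103.Hopf

/-!
A map covered by a fibrewise quadratic map of the tautological bundle has `2` in the spectrum
of its action on second homology.
-/

open CategoryTheory Simplicial Opposite Complex AlgebraicTopology
open scoped ComplexConjugate

namespace Vale.Agent.P103

theorem sum_map {n m : ℕ} (g : Fin (n + 1) → Fin (m + 1)) (A : Fin (m + 1) → ℂ) (z : D n) :
    ∑ i, (stdSimplex.map g z i : ℂ) * A i = ∑ j, z j * A (g j) := by
  rw [← Finset.sum_fiberwise Finset.univ g]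
  refine Finset.sum_congr rfl fun i _ => ?_
  rw [stdSimplex.map_coe, FunOnFinite.linearMap_apply_apply, ofReal_sum, Finset.sum_mul]
  exact Finset.sum_congr rfl fun j hj => by rw [(Finset.mem_filter.1 hj).2]

noncomputable def uu (z : D 2) : ℂ := ∑ i, (z i : ℂ) * ![1, I, -1 - I] i

noncomputable def mm (z : D 2) : ℝ := ∏ i, z i

theorem cz {n : ℕ} (i) : Continuous fun z : D n => z i :=
  (continuous_apply i).comp continuous_subtype_val

theorem cuu : Continuous uu :=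
  continuous_finsetSum _ fun i _ => (continuous_ofReal.comp (cz i)).mul continuous_const

theorem cmm : Continuous mm := continuous_finsetProd _ fun i _ => cz i

theorem mm_face (i : Fin 3) (z : D 1) : mm (stdSimplex.map i.succAbove z) = 0 :=
  Finset.prod_eq_zero (Finset.mem_univ i) (by
    simp [FunOnFinite.linearMap_apply_apply, Finset.filter_eq_empty_iff.2])

theorem mm_ne {z : D 2} (h : uu z = 0) : mm z ≠ 0 := by
  have h1 := congrArg re h
  have h2 := congrArg im h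
  have h3 := stdSimplex.sum_eq_one z
  rw [Fin.sum_univ_three] at h3
  simp [uu, Fin.sum_univ_three] at h1 h2
  have h4 : z 2 = 1 / 3 := by linarith
  have h5 : z 1 = 1 / 3 := by linarith
  have h6 : z 0 = 1 / 3 := by linarith
  rw [mm, Fin.prod_univ_three, h4, h5, h6]
  norm_num

variable {M : Type} [TopologicalSpace M] {ξ : C(M, ℂ)} {s : C(M, ℝ)}

theorem spec_two (h : ∀ m, ξ m * conj (ξ m) = s m * (2 - s m)) (f : C(M, M))
    (F : C(Tot ξ s, Tot ξ s)) (hF1 : ∀ x, (F x).1.1 = f x.1.1)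
    (hF2 : ∀ x y (l : ℂ), x.1.1 = y.1.1 → l • x.1.2 = y.1.2 → l ^ 2 • (F x).1.2 = (F y).1.2)
    (H : ℂ × ℂ → M) (hH : ContinuousOn H {0}ᶜ) (hH1 : ∀ a ≠ 0, Ln (ξ (H a)) (s (H a)) a)
    (hH2 : ∀ l : ℂ, l ≠ 0 → ∀ a, H (l • a) = H a) :
    (2 : ℝ) ∈ spectrum ℝ (show Module.End ℝ _ from
      (((singularHomologyFunctor (ModuleCat ℝ) 2).obj (ModuleCat.of ℝ ℝ)).map
        (TopCat.ofHom f)).hom) := by
  let π : C(Tot ξ s, M) := ⟨fun x => x.1.1, by fun_prop⟩
  let X := TopCat.toSSet.obj (TopCat.of (Tot ξ s))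
  let p := TopCat.toSSet.map (TopCat.ofHom π)
  let e : ∀ {n}, X _⦋n⦌ ≃ C(D n, Tot ξ s) := fun {n} => TopCat.toSSetObjEquiv _ (op ⦋n⦌)
  have hp : ∀ {n} (a b : X _⦋n⦌), p.app _ a = p.app _ b ↔ ∀ z, (e a z).1.1 = (e b z).1.1 := by
    intro n a b
    rw [← (TopCat.toSSetObjEquiv _ (op ⦋n⦌)).apply_eq_iff_eq, ContinuousMap.ext_iff]
    rfl
  let r : ∀ {n}, X _⦋n⦌ → X _⦋n⦌ → D n → ℂ := fun a b z => rat (e a z).1.2 (e b z).1.2
  have r1 : ∀ {n} (a b : X _⦋n⦌), Continuous (r a b) := fun a b => by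
    refine Continuous.div ?_ ?_ fun z => den_ne (e a z).2.1 <;> fun_prop
  have r2 : ∀ {n} (a b : X _⦋n⦌), p.app _ a = p.app _ b → ∀ z,
      r a b z • (e a z).1.2 = (e b z).1.2 := fun a b h z =>
    (e a z).2.2.smul_rat ((hp a b).1 h z ▸ (e b z).2.2) (e a z).2.1
  have r3 : ∀ {n} (a b : X _⦋n⦌), p.app _ a = p.app _ b → ∀ z, r a b z ≠ 0 :=
    fun a b h z h1 => (e b z).2.1 (by rw [← r2 a b h z, h1, zero_smul])
  have nz : ∀ z : D 2, ((uu z * conj (uu z) + mm z, uu z) : ℂ × ℂ) ≠ 0 := fun z h => by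
    obtain ⟨h1, h2⟩ := Prod.mk.inj h
    exact mm_ne h2 (by simpa [h2] using h1)
  have nz1 : ∀ z : D 2, ((conj (uu z), 1) : ℂ × ℂ) ≠ 0 := fun z => by simp
  have := cuu
  have := cmm
  let mk : ∀ g : D 2 → ℂ × ℂ, Continuous g → (∀ z, g z ≠ 0) → X _⦋2⦌ := fun g g1 g2 =>
    e.symm ⟨fun z => ⟨(H (g z), g z), g2 z, hH1 _ (g2 z)⟩,
      ((hH.comp_continuous g1 g2).prodMk g1).subtype_mk _⟩
  have fc : ∀ (i : Fin 3) (z : D 1), uu (stdSimplex.map i.succAbove z) •
      ((conj (uu (stdSimplex.map i.succAbove z)), 1) : ℂ × ℂ) =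
      (uu (stdSimplex.map i.succAbove z) * conj (uu (stdSimplex.map i.succAbove z)) +
        mm (stdSimplex.map i.succAbove z), uu (stdSimplex.map i.succAbove z)) := fun i z => by
    simp [mm_face]
  refine two_mem_spectrum p (TopCat.toSSet.map (TopCat.ofHom F))
    (TopCat.toSSet.map (TopCat.ofHom f)) ?_ (fun n y => ?_) (fun a b => var (r a b))
    (fun a b c h1 h2 => ?_) (fun a b h1 => ?_) (fun a b h1 => ?_)
    (mk _ (by fun_prop) nz1) (mk _ (by fun_prop) nz) (fun i => (hp _ _).2 fun z => ?_) ?_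
  · rw [← Functor.map_comp, ← Functor.map_comp]
    congr 1
    ext x
    exact hF1 x
  · obtain ⟨τ, hτ⟩ := exists_lift ξ s h (TopCat.toSSetObjEquiv _ (op ⦋n⦌) y)
    exact ⟨e.symm τ, (TopCat.toSSetObjEquiv _ (op ⦋n⦌)).injective (ContinuousMap.ext hτ)⟩
  · rw [← var_mul (r1 a b) (r3 a b h1) (r1 b c) (r3 b c h2)]
    congr 1
    ext z
    have k : (r a b z * r b c z) • (e a z).1.2 = (e c z).1.2 := by
      rw [mul_comm, mul_smul, r2 a b h1 z, r2 b c h2 z]
    exact (congrArg (rat _) k.symm).trans (rat_smul (e a z).2.1 _)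
  · obtain ⟨G, g1, g2⟩ := exists_log (r1 a b) (r3 a b h1)
    have k : ∀ i : Fin 3, var (r (X.δ i a) (X.δ i b)) =
        (G (stdSimplex.vertex (i.succAbove 1)) - G (stdSimplex.vertex (i.succAbove 0))).im := by
      intro i
      refine (var_eq (g1.comp (stdSimplex.continuous_map i.succAbove)) fun z => g2 _).trans ?_
      simp
    refine (Finset.sum_congr rfl fun i _ => congrArg _ (k i)).trans ?_
    simp only [Fin.sum_univ_three]
    rw [show Fin.succAbove (0 : Fin 3) 1 = 2 from rfl, show Fin.succAbove (0 : Fin 3) 0 = 1 from rfl,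
      show Fin.succAbove (1 : Fin 3) 1 = 2 from rfl, show Fin.succAbove (1 : Fin 3) 0 = 0 from rfl,
      show Fin.succAbove (2 : Fin 3) 1 = 1 from rfl, show Fin.succAbove (2 : Fin 3) 0 = 0 from rfl]
    simp
  · rw [two_mul, ← var_mul (r1 a b) (r3 a b h1) (r1 a b) (r3 a b h1)]
    congr 1
    ext z
    change rat (F (e a z)).1.2 (F (e b z)).1.2 = _
    rw [← hF2 _ _ _ ((hp a b).1 h1 z) (r2 a b h1 z), rat_smul (F _).2.1, sq]
  · refine (hH2 _ (fun h1 => mm_ne h1 (mm_face i z)) _).symm.trans ?_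
    exact congrArg H (fc i z)
  · have k : ∀ i : Fin 3, var (r (X.δ i (mk _ (by fun_prop) nz1)) (X.δ i (mk _ (by fun_prop) nz))) =
        var fun z => z 0 * ![1, I, -1 - I] (i.succAbove 0) +
          z 1 * ![1, I, -1 - I] (i.succAbove 1) := fun i => by
      congr 1
      ext z
      refine (congrArg (rat _) (fc i z).symm).trans ((rat_smul (nz1 _) _).trans ?_)
      rw [uu, sum_map, Fin.sum_univ_two]
    refine (Finset.sum_congr rfl fun i _ => congrArg _ (k i)).trans_ne ?_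
    rw [Fin.sum_univ_three]
    have a0 : ((-1 - I) / I).im = 1 := by simp [div_I]
    have a1 : ((-1 - I) / 1 : ℂ).im = -1 := by simp
    have a2 : (I / 1 : ℂ).im = 1 := by simp
    have b0 := var_seg I_ne_zero (a0 ▸ one_ne_zero)
    have b1 := var_seg one_ne_zero (a1 ▸ (by norm_num : (-1 : ℝ) ≠ 0))
    have b2 := var_seg one_ne_zero (a2 ▸ one_ne_zero)
    have c0 := arg_nonneg_iff.2 (a0 ▸ zero_le_one)
    have c1 := arg_neg_iff.2 (a1 ▸ (by norm_num : (-1 : ℝ) < 0))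
    have c2 := arg_nonneg_iff.2 (a2 ▸ zero_le_one)
    rw [← b0] at c0
    rw [← b1] at c1
    rw [← b2] at c2
    change (-1) ^ 0 * var (fun z => z 0 * I + z 1 * (-1 - I)) +
      (-1) ^ 1 * var (fun z => z 0 * 1 + z 1 * (-1 - I)) +
      (-1) ^ 2 * var (fun z => z 0 * 1 + z 1 * I) ≠ 0
    norm_num at c0 c1 c2 ⊢
    linarith

end Vale.Agent.P103
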