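import Vale.Agent.P103.Smooth
import Vale.Agent.P103.Spec

/-!
The action of the map on second homology.
-/

open Complex Real Metric CategoryTheory AlgebraicTopology
open scoped ComplexConjugate Manifold

namespace Vale.Agent.P103

theorem ff_xi (m : M) : (co (ff m)).1 = 2 * gam (co m).2.1 * PP (co m) / den (co m) := by
  change ((_ / _ : ℝ) : ℂ) + ((_ / _ : ℝ) : ℂ) * I = _
  conv_rhs => rw [← re_add_im (PP (co m))]
  push_cast
  ring

theorem ff_s (m : M) : (co (ff m)).2.1 = 2 * (co m).2.1 ^ 2 * gam (co m).2.1 ^ 2 / den (co m) :=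
  sub_sub_cancel _ _

theorem ff_t (m : M) : (co (ff m)).2.2.2.1 = t1 (co m) := mul_div_cancel₀ _ (by norm_num)

theorem ff_z (m : M) : (co (ff m)).2.2.2.2.1 = z1 (co m) := by
  change 1000 * (((_ / _ : ℝ) : ℂ) + ((_ / _ : ℝ) : ℂ) * I) = _
  conv_rhs => rw [← re_add_im (z1 (co m))]
  push_cast
  ring

theorem ff_w (m : M) : (co (ff m)).2.2.2.2.2 = w1 (co m) := by
  change 1000 * (((_ / _ : ℝ) : ℂ) + ((_ / _ : ℝ) : ℂ) * I) = _
  conv_rhs => rw [← re_add_im (w1 (co m))]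
  push_cast
  ring

theorem ff_y (m : M) : (ff m).2.2.1 5 = √(1 - rr (co m) / 10 ^ 6) := rfl

noncomputable def pole : sphere (0 : E 6) 1 := ⟨EuclideanSpace.single 5 1, by simp⟩

theorem nsq_ne {a : ℂ × ℂ} (h : a ≠ 0) : ‖a.1‖ ^ 2 + ‖a.2‖ ^ 2 ≠ 0 := fun h1 => h (Prod.ext
  (norm_eq_zero.1 (by nlinarith [sq_nonneg ‖a.1‖, sq_nonneg ‖a.2‖]))
  (norm_eq_zero.1 (by nlinarith [sq_nonneg ‖a.1‖, sq_nonneg ‖a.2‖])))

open scoped Classical in
noncomputable def hopf (a : ℂ × ℂ) : M :=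
  (if h : a = 0 then ⟨EuclideanSpace.single 0 1, by simp⟩ else
    ⟨!₂[2 * (a.1 * conj a.2).re / (‖a.1‖ ^ 2 + ‖a.2‖ ^ 2),
      2 * (a.1 * conj a.2).im / (‖a.1‖ ^ 2 + ‖a.2‖ ^ 2),
      1 - 2 * ‖a.2‖ ^ 2 / (‖a.1‖ ^ 2 + ‖a.2‖ ^ 2)], by
      have h1 := nsq_ne h
      have h2 := Complex.sq_norm (a.1 * conj a.2)
      rw [norm_mul, norm_conj, normSq_apply] at h2
      rw [EuclideanSpace.sphere_zero_eq _ zero_le_one]
      simp only [Fin.sum_univ_three, Set.mem_setOf_eq]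
      change (_ / _) ^ 2 + (_ / _) ^ 2 + (1 - _ / _) ^ 2 = _
      field_simp
      linear_combination -4 * h2⟩, 1, pole)

theorem lift_ne {m : M} {a : ℂ × ℂ} (h0 : a ≠ 0) (h : Ln (co m).1 (co m).2.1 a) :
    (a.1 ^ 2 + EE (co m) * a.2 ^ 2, gam (co m).2.1 * a.2 ^ 2) ≠ 0 := by
  intro h1
  simp only [Prod.mk_eq_zero, mul_eq_zero, ofReal_eq_zero] at h1
  obtain ⟨h3, h4 | h4⟩ := h1
  · rw [Ok.EE_zero h4, zero_mul, add_zero, sq_eq_zero_iff] at h3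
    have h5 : (2 - (co m).2.1 : ℂ) ≠ 0 := by
      have := Ok.small h4
      exact_mod_cast (by linarith : (2 - (co m).2.1 : ℝ) ≠ 0)
    have h2 := h.2
    rw [h3, zero_mul, eq_comm, mul_eq_zero] at h2
    exact h0 (Prod.ext h3 (h2.resolve_right h5))
  · rw [h4, mul_zero, add_zero, sq_eq_zero_iff] at h3
    exact h0 (Prod.ext h3 (sq_eq_zero_iff.1 h4))

theorem lift_ln {m : M} {a : ℂ × ℂ} (h : Ln (co m).1 (co m).2.1 a) :
    Ln (co (ff m)).1 (co (ff m)).2.1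
      (a.1 ^ 2 + EE (co m) * a.2 ^ 2, gam (co m).2.1 * a.2 ^ 2) := by
  obtain ⟨h1, h2⟩ := h
  have h3 : (den (co m) : ℂ) ≠ 0 := ofReal_ne_zero.2 (ok m).den_pos.ne'
  have h4 := (ok m).DD_eq
  have h5 : (den (co m) : ℂ) = DD (co m) + (co m).2.1 ^ 2 * gam (co m).2.1 ^ 2 := by
    rw [den]
    push_cast
    rfl
  rw [ff_xi, ff_s]
  generalize co m = b at *
  constructor <;> simp only [PP, map_div₀, map_mul, map_add, map_pow, conj_ofReal, map_ofNat] <;>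
    push_cast <;> field_simp
  · linear_combination (gam b.2.1 : ℂ) ^ 2 * (a.1 * b.2.1 + a.2 * b.1) * h1
  · rw [h5, h4]
    linear_combination (gam b.2.1 : ℂ) * ((a.1 * conj b.1 + a.2 * (2 - b.2.1)) * h2 +
      conj (EE b) * (a.1 * b.2.1 + a.2 * b.1) * h1)

theorem hopf_cont : ContinuousOn hopf {0}ᶜ := by
  refine ContinuousOn.prodMk (continuousOn_iff_continuous_restrict.2
    (continuous_induced_rng.2 ?_)) continuousOn_const
  refine Continuous.congr (f := fun a : ({0}ᶜ : Set (ℂ × ℂ)) =>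
    !₂[2 * (a.1.1 * conj a.1.2).re / (‖a.1.1‖ ^ 2 + ‖a.1.2‖ ^ 2),
    2 * (a.1.1 * conj a.1.2).im / (‖a.1.1‖ ^ 2 + ‖a.1.2‖ ^ 2),
    1 - 2 * ‖a.1.2‖ ^ 2 / (‖a.1.1‖ ^ 2 + ‖a.1.2‖ ^ 2)]) ?_ fun a => ?_
  · have := fun a : ({0}ᶜ : Set (ℂ × ℂ)) => nsq_ne a.2
    fun_prop (disch := assumption)
  · simp only [Function.comp_apply, Set.restrict_apply, dif_neg (show a.1 ≠ 0 from a.2)]

theorem hopf_ln (a : ℂ × ℂ) (ha : a ≠ 0) : Ln (co (hopf a)).1 (co (hopf a)).2.1 a := by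
  have h1 : ((‖a.1‖ ^ 2 + ‖a.2‖ ^ 2 : ℝ) : ℂ) ≠ 0 := ofReal_ne_zero.2 (nsq_ne ha)
  have h2 : (co (hopf a)).1 = 2 * (a.1 * conj a.2) / ((‖a.1‖ ^ 2 + ‖a.2‖ ^ 2 : ℝ) : ℂ) := by
    simp only [co, hopf, dif_neg ha]
    change ((_ / _ : ℝ) : ℂ) + ((_ / _ : ℝ) : ℂ) * I = _
    conv_rhs => rw [← re_add_im (a.1 * conj a.2)]
    push_cast
    ring
  have h3 : (co (hopf a)).2.1 = 2 * ‖a.2‖ ^ 2 / (‖a.1‖ ^ 2 + ‖a.2‖ ^ 2) := by
    simp only [co, hopf, dif_neg ha]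
    exact sub_sub_cancel _ _
  rw [h2, h3]
  constructor <;> simp only [map_div₀, map_mul, conj_ofReal, map_ofNat, conj_conj, ofReal_div,
    ofReal_mul] <;> field_simp <;> push_cast <;> simp only [← mul_conj'] <;> ring

theorem hopf_smul (l : ℂ) (hl : l ≠ 0) (a : ℂ × ℂ) : hopf (l • a) = hopf a := by
  by_cases ha : a = 0
  · rw [ha, smul_zero]
  have h1 := nsq_ne ha
  have h2 := norm_ne_zero_iff.2 hl
  have h3 : l * a.1 * conj (l * a.2) = (‖l‖ ^ 2 : ℝ) * (a.1 * conj a.2) := by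
    push_cast
    rw [← mul_conj', map_mul]
    ring
  have h4 : (‖l‖ * ‖a.1‖) ^ 2 + (‖l‖ * ‖a.2‖) ^ 2 = ‖l‖ ^ 2 * (‖a.1‖ ^ 2 + ‖a.2‖ ^ 2) := by ring
  simp only [hopf, dif_neg ha, dif_neg (smul_ne_zero hl ha), Prod.smul_fst, Prod.smul_snd,
    smul_eq_mul, h3, re_ofReal_mul, im_ofReal_mul, norm_mul, h4]
  congr 3
  ext i
  fin_cases i <;> simp <;> field_simp

noncomputable def ffC : C(M, M) := ⟨ff, cm_ff.continuous⟩

noncomputable def xiC : C(M, ℂ) := ⟨fun m => (co m).1, cm_co.continuous.fst⟩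

noncomputable def sC : C(M, ℝ) := ⟨fun m => (co m).2.1, cm_co.continuous.snd.fst⟩

noncomputable def FC : C(Tot xiC sC, Tot xiC sC) where
  toFun x := ⟨(ff x.1.1, x.1.2.1 ^ 2 + EE (co x.1.1) * x.1.2.2 ^ 2,
    gam (co x.1.1).2.1 * x.1.2.2 ^ 2), lift_ne x.2.1 x.2.2, lift_ln x.2.2⟩
  continuous_toFun := by
    have c1 := cd_EE.continuous.comp cm_co.continuous
    have c2 := cd_gam.continuous.comp cm_co.continuous.snd.fst
    have c3 : Continuous fun x : Tot xiC sC => x.1.1 := continuous_subtype_val.fst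
    have c4 : Continuous fun x : Tot xiC sC => x.1.2 := continuous_subtype_val.snd
    exact ((cm_ff.continuous.comp c3).prodMk (((c4.fst.pow 2).add ((c1.comp c3).mul
      (c4.snd.pow 2))).prodMk ((continuous_ofReal.comp (c2.comp c3)).mul (c4.snd.pow 2)))).subtype_mk _

theorem spec_ff : (2 : ℝ) ∈ spectrum ℝ (show Module.End ℝ _ from
    (((singularHomologyFunctor (ModuleCat ℝ) 2).obj (ModuleCat.of ℝ ℝ)).map
      (TopCat.ofHom ffC)).hom) := by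
  refine spec_two (ξ := xiC) (s := sC) (fun m => (ok m).onC) ffC FC (fun _ => rfl) ?_ hopf
    hopf_cont hopf_ln hopf_smul
  rintro ⟨⟨m, p, q⟩, _⟩ ⟨⟨m', p', q'⟩, _⟩ l rfl h
  obtain ⟨rfl, rfl⟩ := Prod.mk.inj h
  refine Prod.ext ?_ ?_ <;> simp only [FC, ContinuousMap.coe_mk, Prod.smul_mk, smul_eq_mul] <;> ring

end Vale.Agent.P103
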