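import Vale.Agent.P103.Chain

/-!
The tautological line bundle over a space mapping to the two-sphere.
-/

open CategoryTheory Simplicial Opposite Complex Filter Topology
open scoped ComplexConjugate unitInterval

namespace Vale.Agent.P103

abbrev D (n : ℕ) : Type := stdSimplex ℝ (Fin (n + 1))

noncomputable def con (n : ℕ) : C(unitInterval × D n, D n) where
  toFun x := ⟨(1 - x.1.1) • (stdSimplex.vertex (S := ℝ) (0 : Fin (n + 1))).1 + x.1.1 • x.2.1,
    convex_stdSimplex ℝ _ (stdSimplex.vertex 0).2 x.2.2 (sub_nonneg.2 x.1.2.2) x.1.2.1 (by simp)⟩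
  continuous_toFun := by fun_prop

theorem con_zero (n : ℕ) (z : D n) : con n (0, z) = stdSimplex.vertex 0 :=
  Subtype.ext (by simp [con])

theorem con_one (n : ℕ) (z : D n) : con n (1, z) = z := Subtype.ext (by simp [con])

theorem exists_log {n : ℕ} {g : D n → ℂ} (hg : Continuous g) (h : ∀ z, g z ≠ 0) :
    ∃ G : D n → ℂ, Continuous G ∧ ∀ z, exp (G z) = g z := by
  let H : C(unitInterval × D n, {z : ℂ // z ≠ 0}) := ⟨fun x => ⟨g (con n x), h _⟩, by fun_prop⟩
  have h0 : ∀ a, H (0, a) = ⟨exp (ContinuousMap.const (D n) (log (g (stdSimplex.vertex 0))) a),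
      exp_ne_zero _⟩ := fun a => Subtype.ext (by simp [H, con_zero, exp_log (h _)])
  refine ⟨fun z => isCoveringMap_exp.liftHomotopy H _ h0 (1, z), by fun_prop, fun z => ?_⟩
  have := congrArg Subtype.val (congrFun (isCoveringMap_exp.liftHomotopy_lifts H _ h0) (1, z))
  simpa [H, con_one] using this

open scoped Classical in
noncomputable def var (g : D 1 → ℂ) : ℝ :=
  if h : ∃ G : D 1 → ℂ, Continuous G ∧ ∀ z, exp (G z) = g z then
    (h.choose (stdSimplex.vertex 1) - h.choose (stdSimplex.vertex 0)).im else 0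

theorem var_eq {g G : D 1 → ℂ} (hG : Continuous G) (h : ∀ z, exp (G z) = g z) :
    var g = (G (stdSimplex.vertex 1) - G (stdSimplex.vertex 0)).im := by
  have h1 : ∃ G : D 1 → ℂ, Continuous G ∧ ∀ z, exp (G z) = g z := ⟨G, hG, h⟩
  rw [var, dif_pos h1]
  have := isCoveringMap_exp.const_of_comp (h1.choose_spec.1.sub hG) (fun a a' => Subtype.ext (by
    have k : ∀ a, exp (h1.choose a - G a) = 1 := fun a => by
      rw [exp_sub, h1.choose_spec.2, ← h, div_self (exp_ne_zero _)]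
    exact (k a).trans (k a').symm)) (stdSimplex.vertex 1) (stdSimplex.vertex 0)
  congr 1
  simp only [Pi.sub_apply] at this
  linear_combination this

theorem var_mul {g g' : D 1 → ℂ} (hg : Continuous g) (h : ∀ z, g z ≠ 0) (hg' : Continuous g')
    (h' : ∀ z, g' z ≠ 0) : var (fun z => g z * g' z) = var g + var g' := by
  obtain ⟨G, a1, a2⟩ := exists_log hg h
  obtain ⟨G', b1, b2⟩ := exists_log hg' h'
  rw [var_eq a1 a2, var_eq b1 b2, var_eq (a1.add b1) fun z => by simp [exp_add, a2, b2], ← add_im]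
  simp only [Pi.add_apply]
  congr 1
  ring

theorem var_seg {A B : ℂ} (hA : A ≠ 0) (h : (B / A).im ≠ 0) :
    var (fun z => z 0 * A + z 1 * B) = arg (B / A) := by
  have hs : ∀ z : D 1, (z 0 + z 1 * (B / A) : ℂ) ∈ slitPlane := fun z => by
    by_cases h1 : z 1 = 0
    · have := stdSimplex.add_eq_one z
      exact Or.inl (by simp [h1]; linarith)
    · exact Or.inr (by simp [h1, h])
  have c : ∀ i, Continuous fun z : D 1 => (z i : ℂ) := fun i =>
    continuous_ofReal.comp ((continuous_apply i).comp continuous_subtype_val)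
  rw [var_eq (G := fun z => log (z 0 + z 1 * (B / A)) + log A)
    ((((c 0).add ((c 1).mul continuous_const)).clog hs).add continuous_const) fun z => by
      rw [exp_add, exp_log hA, exp_log (slitPlane_ne_zero (hs z))]
      field_simp]
  simp [log_im]

noncomputable def rat (a b : ℂ × ℂ) : ℂ :=
  (conj a.1 * b.1 + conj a.2 * b.2) / (conj a.1 * a.1 + conj a.2 * a.2)

theorem den_ne {a : ℂ × ℂ} (h : a ≠ 0) : conj a.1 * a.1 + conj a.2 * a.2 ≠ 0 := fun h1 => by
  rw [← normSq_eq_conj_mul_self, ← normSq_eq_conj_mul_self] at h1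
  have h2 : normSq a.1 + normSq a.2 = 0 := by exact_mod_cast h1
  have := normSq_nonneg a.1
  have := normSq_nonneg a.2
  exact h (Prod.ext (normSq_eq_zero.1 (by linarith)) (normSq_eq_zero.1 (by linarith)))

theorem rat_smul {a : ℂ × ℂ} (h : a ≠ 0) (l : ℂ) : rat a (l • a) = l := by
  rw [rat, div_eq_iff (den_ne h)]
  simp only [Prod.smul_fst, Prod.smul_snd, smul_eq_mul]
  ring

/-- The line over the point `(ξ, 1 - s)` of the sphere. -/
def Ln (ξ : ℂ) (s : ℝ) (a : ℂ × ℂ) : Prop := a.1 * s = a.2 * ξ ∧ a.1 * conj ξ = a.2 * (2 - s)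

theorem Ln.smul_rat {ξ : ℂ} {s : ℝ} {a b : ℂ × ℂ} (ha : Ln ξ s a) (hb : Ln ξ s b) (h : a ≠ 0) :
    rat a b • a = b := by
  have k : a.1 * b.2 = a.2 * b.1 := by
    have h1 : (a.1 * b.2 - a.2 * b.1) * s = 0 := by linear_combination b.2 * ha.1 - a.2 * hb.1
    have h2 : (a.1 * b.2 - a.2 * b.1) * (2 - s) = 0 := by
      linear_combination b.1 * ha.2 - a.1 * hb.2
    linear_combination (h1 + h2) / 2
  have := den_ne h
  ext <;> simp only [rat, Prod.smul_fst, Prod.smul_snd, smul_eq_mul] <;> field_simp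
  · linear_combination conj a.2 * k
  · linear_combination -conj a.1 * k

noncomputable def pr (ξ : ℂ) (s : ℝ) (a : ℂ × ℂ) : ℂ × ℂ :=
  (((2 - s) * a.1 + ξ * a.2) / 2, (conj ξ * a.1 + s * a.2) / 2)

theorem ln_pr {ξ : ℂ} {s : ℝ} (h : ξ * conj ξ = s * (2 - s)) (a : ℂ × ℂ) : Ln ξ s (pr ξ s a) :=
  ⟨by simp only [pr]; linear_combination -a.1 / 2 * h,
    by simp only [pr]; linear_combination a.2 / 2 * h⟩

theorem pr_ne {ξ ξ' : ℂ} {s s' : ℝ} {a : ℂ × ℂ} (ha : Ln ξ s a) (h : a ≠ 0) (h1 : ‖ξ - ξ'‖ < 1)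
    (h2 : |s - s'| < 1) : pr ξ' s' a ≠ 0 := fun h3 => by
  obtain ⟨e1, e2⟩ := Prod.mk.inj h3
  have f1 : 2 * a.1 = -((s - s' : ℝ) * a.1) + (ξ - ξ') * a.2 := by
    push_cast
    linear_combination 2 * e1 + ha.1
  have f2 : 2 * a.2 = conj (ξ - ξ') * a.1 + (s - s' : ℝ) * a.2 := by
    rw [map_sub]
    push_cast
    linear_combination 2 * e2 - ha.2
  have g1 := (congrArg norm f1).trans_le (norm_add_le _ _)
  have g2 := (congrArg norm f2).trans_le (norm_add_le _ _)
  simp only [norm_mul, norm_neg, norm_real, Real.norm_eq_abs, norm_conj, Complex.norm_ofNat]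
    at g1 g2
  have g3 : 0 < ‖a.1‖ + ‖a.2‖ := by
    by_contra h4
    have := norm_nonneg a.1
    have := norm_nonneg a.2
    exact h (Prod.ext (norm_eq_zero.1 (by linarith)) (norm_eq_zero.1 (by linarith)))
  nlinarith

variable {M : Type} [TopologicalSpace M] (ξ : C(M, ℂ)) (s : C(M, ℝ))

abbrev Tot : Type := {x : M × ℂ × ℂ // x.2 ≠ 0 ∧ Ln (ξ x.1) (s x.1) x.2}

theorem exists_lift (h : ∀ m, ξ m * conj (ξ m) = s m * (2 - s m)) {n : ℕ} (τ : C(D n, M)) :
    ∃ τ' : C(D n, Tot ξ s), ∀ z, (τ' z).1.1 = τ z := by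
  let S : unitInterval → Prop := fun t => ∃ τ' : C(D n, Tot ξ s), ∀ z, (τ' z).1.1 = τ (con n (t, z))
  have hu := CompactSpace.uniformContinuous_of_continuous
    (f := fun x => (ξ (τ (con n x)), s (τ (con n x)))) (by fun_prop)
  obtain ⟨δ, δ0, hδ⟩ := Metric.uniformContinuous_iff.1 hu 1 one_pos
  have k : ∀ t t', dist t t' < δ → S t → S t' := by
    rintro t t' h1 ⟨τ', h2⟩
    refine ⟨⟨fun z => ⟨(τ (con n (t', z)), pr (ξ (τ (con n (t', z)))) (s (τ (con n (t', z))))
      (τ' z).1.2), ?_, ln_pr (h _) _⟩, ?_⟩, fun z => rfl⟩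
    · have h3 := hδ (a := (t, z)) (b := (t', z)) (by simpa using h1)
      rw [Prod.dist_eq, max_lt_iff, dist_eq_norm, Real.dist_eq, ← h2] at h3
      exact pr_ne (τ' z).2.2 (τ' z).2.1 h3.1 h3.2
    · unfold pr
      fun_prop
  have h0 : S 0 := by
    obtain ⟨a, ha⟩ : ∃ a, pr (ξ (τ (stdSimplex.vertex 0))) (s (τ (stdSimplex.vertex 0))) a ≠ 0 := by
      by_contra! h1
      have h2 := congrArg Prod.fst (h1 (1, 0))
      have h3 := congrArg Prod.snd (h1 (0, 1))
      simp only [pr, Prod.fst_zero, Prod.snd_zero] at h2 h3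
      exact two_ne_zero (by linear_combination 2 * h2 + 2 * h3 : (2 : ℂ) = 0)
    exact ⟨.const _ ⟨(_, _), ha, ln_pr (h _) _⟩, fun z => by simp [con_zero]⟩
  obtain ⟨τ', h1⟩ : S 1 := PreconnectedSpace.induction₂' (fun t t' => S t → S t') (fun t => by
    filter_upwards [Metric.ball_mem_nhds t δ0] with t' h1
    exact ⟨k _ _ (Metric.mem_ball'.1 h1), k _ _ h1⟩) ⟨fun _ _ _ a b c => b (a c)⟩ 0 1 h0
  exact ⟨τ', fun z => by rw [h1, con_one]⟩

end Vale.Agent.P103
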