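import Mathlib

/-!
The injection of high harmonics: a `C¹` series.
-/

open Complex Real
open scoped ComplexConjugate

namespace Vale.Agent.P103

noncomputable abbrev sT : ℝ → ℝ := Real.smoothTransition

theorem sT0 {x : ℝ} (h : x ≤ 0) : sT x = 0 := smoothTransition.zero_of_nonpos h
theorem sT1 {x : ℝ} (h : 1 ≤ x) : sT x = 1 := smoothTransition.one_of_one_le h
theorem sT_nn (x : ℝ) : 0 ≤ sT x := smoothTransition.nonneg x
theorem sT_le (x : ℝ) : sT x ≤ 1 := smoothTransition.le_one x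

noncomputable def nn (y : ℂ) : ℂ := y ^ 2 * ((1 + ‖y‖ ^ 2)⁻¹ : ℝ)

noncomputable def chi (r : ℝ) : ℝ := sT (r - 2) * sT ((16 - r) / 4)

theorem chi_nn (r : ℝ) : 0 ≤ chi r := mul_nonneg (sT_nn _) (sT_nn _)

theorem chi_le (r : ℝ) : chi r ≤ 1 := mul_le_one₀ (sT_le _) (sT_nn _) (sT_le _)

theorem chi_ne {r : ℝ} (h : chi r ≠ 0) : 2 ≤ r ∧ r ≤ 16 := by
  constructor <;> by_contra h1
  · exact h (by rw [chi, sT0 (by linarith), zero_mul])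
  · exact h (by rw [chi, sT0 (x := _ / 4) (by linarith), mul_zero])

theorem chi_one {r : ℝ} (h : 3 ≤ r) (h' : r ≤ 12) : chi r = 1 := by
  rw [chi, sT1 (by linarith), sT1 (by linarith), one_mul]

@[fun_prop] theorem cd_ofReal : ContDiff ℝ 1 fun x : ℝ => (x : ℂ) := ofRealCLM.contDiff

@[fun_prop] theorem cd_nsq : ContDiff ℝ 1 fun x : ℂ => ‖x‖ ^ 2 := contDiff_norm_sq ℝ

@[fun_prop] theorem cd_sT : ContDiff ℝ 1 sT := smoothTransition.contDiff (n := 1)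

@[fun_prop] theorem cd_chi : ContDiff ℝ 1 chi := by unfold chi; fun_prop

@[fun_prop] theorem cd_nn : ContDiff ℝ 1 nn := by
  have : ContDiff ℝ 1 fun y : ℂ => (1 + ‖y‖ ^ 2)⁻¹ :=
    (contDiff_const.add cd_nsq).inv fun y => by positivity
  unfold nn
  fun_prop

theorem norm_nn (y : ℂ) : ‖nn y‖ ≤ 1 := by
  rw [nn, norm_mul, norm_pow, norm_real, Real.norm_of_nonneg (by positivity), ← div_eq_mul_inv,
    div_le_one (by positivity)]
  linarith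

theorem nn_lip (y y' : ℂ) : ‖nn y - nn y'‖ ≤ 2 * ‖y - y'‖ := by
  have h : nn y - nn y' = ((y - y') * (y + y') + y * y' * ((y - y') * conj y' - y' * conj (y - y'))) *
      ((((1 + ‖y‖ ^ 2) * (1 + ‖y'‖ ^ 2))⁻¹ : ℝ) : ℂ) := by
    have a : ((1 + ‖y‖ ^ 2 : ℝ) : ℂ) ≠ 0 := ofReal_ne_zero.2 (by positivity)
    have b : ((1 + ‖y'‖ ^ 2 : ℝ) : ℂ) ≠ 0 := ofReal_ne_zero.2 (by positivity)
    simp only [nn, ofReal_inv, ofReal_mul]
    field_simp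
    push_cast
    rw [← mul_conj', ← mul_conj', map_sub]
    ring
  rw [h, norm_mul, norm_real, Real.norm_of_nonneg (by positivity), ← div_eq_mul_inv,
    div_le_iff₀ (by positivity)]
  refine (norm_add_le _ _).trans ?_
  have h1 := norm_sub_le ((y - y') * conj y') (y' * conj (y - y'))
  have h2 := norm_add_le y y'
  simp only [norm_mul, norm_conj] at h1 ⊢
  generalize ‖(y - y') * conj y' - y' * conj (y - y')‖ = e at *
  have a := norm_nonneg y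
  have b := norm_nonneg y'
  have d := norm_nonneg (y - y')
  have h3 := mul_le_mul_of_nonneg_left h2 d
  have h4 := mul_le_mul_of_nonneg_left h1 (mul_nonneg a b)
  have h5 : ‖y‖ + ‖y'‖ + 2 * ‖y‖ * ‖y'‖ ^ 2 ≤ 2 * ((1 + ‖y‖ ^ 2) * (1 + ‖y'‖ ^ 2)) := by
    nlinarith [sq_nonneg (‖y‖ - 1), sq_nonneg (‖y'‖ - 1),
      mul_nonneg (sq_nonneg ‖y'‖) (sq_nonneg (‖y‖ - 1))]
  nlinarith [mul_le_mul_of_nonneg_left h5 d]

theorem pow_lip {a b : ℂ} (ha : ‖a‖ ≤ 1) (hb : ‖b‖ ≤ 1) (j : ℕ) :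
    ‖a ^ 2 ^ j - b ^ 2 ^ j‖ ≤ 2 ^ j * ‖a - b‖ := by
  induction j with
  | zero => simp
  | succ j ih =>
    have h1 : ‖a ^ 2 ^ j + b ^ 2 ^ j‖ ≤ 2 := (norm_add_le _ _).trans (by
      have := pow_le_one₀ (n := 2 ^ j) (norm_nonneg a) ha
      have := pow_le_one₀ (n := 2 ^ j) (norm_nonneg b) hb
      simp only [norm_pow]
      linarith)
    rw [pow_succ, pow_mul, pow_mul, sq_sub_sq, norm_mul, pow_succ, mul_comm _ (2 : ℝ), mul_assoc]
    exact mul_le_mul h1 ih (norm_nonneg _) zero_le_two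

noncomputable def term (j : ℕ) (p : ℂ × ℝ) : ℂ :=
  (1 / 32) ^ j * chi (4 ^ j * p.2) * nn (8 ^ j * p.1) ^ 2 ^ j

theorem norm_term (j : ℕ) (p : ℂ × ℝ) : ‖term j p‖ ≤ (1 / 32) ^ j := by
  simp only [term, norm_mul, norm_pow, norm_real, Real.norm_of_nonneg (chi_nn _), mul_assoc]
  simpa using mul_le_one₀ (chi_le _) (by positivity)
    (pow_le_one₀ (norm_nonneg _) (norm_nn (8 ^ j * p.1)))

theorem term_lip : ∃ K : ℝ, 0 ≤ K ∧ ∀ j p q, ‖term j p - term j q‖ ≤ K * (1 / 2) ^ j * ‖p - q‖ := by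
  obtain ⟨K, hK⟩ := ContDiff.lipschitzWith_of_hasCompactSupport
    (HasCompactSupport.intro (isCompact_Icc (a := 2) (b := 16)) fun x hx =>
      by_contra fun h => hx (chi_ne h)) cd_chi one_ne_zero
  refine ⟨K + 2, by positivity, fun j p q => ?_⟩
  have h1 := hK.norm_sub_le (4 ^ j * p.2) (4 ^ j * q.2)
  have h2 := (pow_lip (norm_nn _) (norm_nn _) j).trans (mul_le_mul_of_nonneg_left
    (nn_lip (8 ^ j * p.1) (8 ^ j * q.1)) (by positivity))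
  rw [← mul_sub, norm_mul] at h1 h2
  have e : term j p - term j q = (1 / 32) ^ j * ((chi (4 ^ j * p.2) - chi (4 ^ j * q.2) : ℝ) *
      nn (8 ^ j * p.1) ^ 2 ^ j + chi (4 ^ j * q.2) *
        (nn (8 ^ j * p.1) ^ 2 ^ j - nn (8 ^ j * q.1) ^ 2 ^ j)) := by
    simp only [term]
    push_cast
    ring
  have h3 := pow_le_one₀ (n := 2 ^ j) (norm_nonneg _) (norm_nn (8 ^ j * p.1))
  have h4 : ‖p.1 - q.1‖ ≤ ‖p - q‖ := norm_fst_le (p - q)
  have h5 : ‖p.2 - q.2‖ ≤ ‖p - q‖ := norm_snd_le (p - q)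
  have h6 : (4 : ℝ) ^ j ≤ 2 ^ j * 8 ^ j := by
    rw [← mul_pow]
    exact pow_le_pow_left₀ (by norm_num) (by norm_num) _
  have h7 : ((1 : ℝ) / 2) ^ j = (1 / 32) ^ j * (2 ^ j * 8 ^ j) := by
    rw [← mul_pow, ← mul_pow]
    norm_num
  rw [e, norm_mul, h7]
  simp only [norm_pow, norm_div, norm_one, Complex.norm_ofNat, Real.norm_ofNat] at h1 h2 ⊢
  rw [mul_comm (K + 2 : ℝ), mul_assoc, mul_assoc]
  refine mul_le_mul_of_nonneg_left ((norm_add_le _ _).trans ?_) (by positivity)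
  rw [norm_mul, norm_mul, norm_real, norm_real, norm_pow, Real.norm_of_nonneg (chi_nn _)]
  have h8 := mul_le_mul h1 h3 (by positivity) (by positivity)
  have h9 := mul_le_mul (chi_le (4 ^ j * q.2)) h2 (by positivity) zero_le_one
  have h10 : (K : ℝ) * (4 ^ j * ‖p.2 - q.2‖) ≤ K * (2 ^ j * 8 ^ j * ‖p - q‖) := by gcongr
  have h11 : (2 : ℝ) ^ j * (2 * (8 ^ j * ‖p.1 - q.1‖)) ≤ 2 ^ j * (2 * (8 ^ j * ‖p - q‖)) := by gcongr
  nlinarith

noncomputable def inj (e : ℕ) (p : ℂ × ℝ) : ℂ := ∑' i, term (2 * i + e) p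

@[fun_prop] theorem cd_inj (e : ℕ) : ContDiff ℝ 1 (inj e) := by
  obtain ⟨K, K0, hK⟩ := term_lip
  refine contDiff_tsum (N := 1) (v := fun _ i => (K + 1) * (1 / 2) ^ i)
    (fun i => by unfold term; fun_prop)
    (fun _ _ => summable_geometric_two.mul_left _) fun k i x hk => ?_
  have h1 : ((1 : ℝ) / 2) ^ (2 * i + e) ≤ (1 / 2) ^ i :=
    pow_le_pow_of_le_one (by norm_num) (by norm_num) (by omega)
  have h2 : (0 : ℝ) ≤ (1 / 2) ^ i := by positivity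
  obtain rfl | rfl : k = 0 ∨ k = 1 := by
    have : k ≤ 1 := by exact_mod_cast hk
    omega
  · rw [norm_iteratedFDeriv_zero]
    have := (norm_term (2 * i + e) x).trans
      ((pow_le_pow_left₀ (by norm_num) (by norm_num : (1 : ℝ) / 32 ≤ 1 / 2) _).trans h1)
    nlinarith
  · rw [norm_iteratedFDeriv_one]
    refine (norm_fderiv_le_of_lip' ℝ (by positivity)
      (Filter.Eventually.of_forall fun y => hK _ y x)).trans ?_
    nlinarith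

theorem level_eq {i i' e : ℕ} {t : ℝ} (h : 2 ≤ 4 ^ (2 * i + e) * t ∧ 4 ^ (2 * i + e) * t ≤ 16)
    (h' : 2 ≤ 4 ^ (2 * i' + e) * t ∧ 4 ^ (2 * i' + e) * t ≤ 16) : i = i' := by
  have k : ∀ i i' : ℕ, i < i' → 2 ≤ 4 ^ (2 * i + e) * t → ¬4 ^ (2 * i' + e) * t ≤ 16 := by
    intro i i' h1 h2 h3
    have h4 : (4 : ℝ) ^ (2 * i + e + 2) ≤ 4 ^ (2 * i' + e) :=
      pow_le_pow_right₀ (by norm_num) (by omega)
    have h5 : 0 < t := by_contra fun h => by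
      nlinarith [pow_pos (show (0 : ℝ) < 4 by norm_num) (2 * i + e)]
    rw [pow_add] at h4
    nlinarith
  rcases lt_trichotomy i i' with h1 | h1 | h1
  exacts [absurd h'.2 (k _ _ h1 h.1), h1, absurd h.2 (k _ _ h1 h'.1)]

theorem inj_eq (e : ℕ) (p : ℂ × ℝ) : ∃ i, inj e p = term (2 * i + e) p ∧
    ∀ i', chi (4 ^ (2 * i' + e) * p.2) ≠ 0 → i' = i := by
  by_cases h : ∃ i, chi (4 ^ (2 * i + e) * p.2) ≠ 0
  · obtain ⟨i, h⟩ := h
    have k := fun i' h' => level_eq (i := i') (chi_ne h') (chi_ne h)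
    exact ⟨i, tsum_eq_single i fun i' h1 => by
      simp [term, not_not.1 (mt (k i') h1)], k⟩
  · push Not at h
    have k : ∀ i, term (2 * i + e) p = 0 := fun i => by rw [term, h]; simp
    exact ⟨0, by rw [k]; simp only [inj, k, tsum_zero], fun i' h' => absurd (h i') h'⟩

theorem norm_inj (e : ℕ) (p : ℂ × ℝ) : ‖inj e p‖ ≤ 1 := by
  obtain ⟨i, h, -⟩ := inj_eq e p
  exact h ▸ (norm_term _ p).trans (pow_le_one₀ (by norm_num) (by norm_num))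

/-- `y` is a harmonic of level `j` with weight `c`. -/
def Lv (j : ℕ) (c : ℝ) (y : ℂ) (t : ℝ) (ω : ℂ) : Prop :=
  0 ≤ c ∧ y = c * (1 / 32) ^ j * ω ^ 2 ^ j ∧ (c ≠ 0 → 2 ≤ 4 ^ j * t ∧ 4 ^ j * t ≤ 16)

theorem Lv.add {i i' e : ℕ} {c c' t : ℝ} {y y' ω : ℂ} (h : Lv (2 * i + e) c y t ω)
    (h' : Lv (2 * i' + e) c' y' t ω) : ∃ k, Lv (2 * k + e) (c + c') (y + y') t ω := by
  by_cases h1 : c = 0
  · exact ⟨i', by simpa [h1, h.2.1] using h'⟩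
  by_cases h2 : c' = 0
  · exact ⟨i, by simpa [h2, h'.2.1] using h⟩
  obtain rfl := level_eq (h.2.2 h1) (h'.2.2 h2)
  exact ⟨i, add_nonneg h.1 h'.1, by rw [h.2.1, h'.2.1]; push_cast; ring, fun _ => h.2.2 h1⟩

theorem Lv.smul {j : ℕ} {c t a : ℝ} {y ω : ℂ} (h : Lv j c y t ω) (ha : 0 ≤ a) :
    Lv j (a * c) (a * y) t ω :=
  ⟨mul_nonneg ha h.1, by rw [h.2.1]; push_cast; ring, fun h1 => h.2.2 (right_ne_zero_of_mul h1)⟩

theorem Lv.step {j : ℕ} {c t : ℝ} {y ω : ℂ} (h : Lv (j + 1) c y t ω) :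
    Lv j c (32 * y) (4 * t) (ω ^ 2) :=
  ⟨h.1, by rw [h.2.1, ← pow_mul, ← pow_succ']; ring, fun h1 => by
    have := h.2.2 h1
    rwa [pow_succ, mul_assoc] at this⟩

theorem rho_big {j : ℕ} {x : ℝ} (a1 : 1 ≤ j) (b1 : 2 ^ j ≤ x) :
    1 / 2 ≤ (x ^ 2 * (1 + x ^ 2)⁻¹) ^ 2 ^ j := by
  have b2 : (2 : ℝ) ≤ 2 ^ j := le_self_pow₀ one_le_two (by omega)
  have b3 : x ^ 2 * (1 + x ^ 2)⁻¹ = 1 + -(1 + x ^ 2)⁻¹ := by
    field_simp
    ring
  have b4 : (1 + x ^ 2)⁻¹ ≤ (2 * 2 ^ j : ℝ)⁻¹ := inv_anti₀ (by positivity) (by nlinarith)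
  have b6 : (1 + x ^ 2)⁻¹ ≤ 1 := inv_le_one_of_one_le₀ (by nlinarith)
  rw [b3]
  refine le_trans ?_ (one_add_mul_le_pow (by linarith) (2 ^ j))
  have b5 : (2 : ℝ) ^ j * (2 * 2 ^ j)⁻¹ = 1 / 2 := by field_simp
  push_cast
  nlinarith [mul_le_mul_of_nonneg_left b4 (zero_le_two.trans b2)]

theorem lv_inj (e : ℕ) {r : ℝ} (hr : 0 ≤ r) {ω : ℂ} (hω : ‖ω‖ = 1) (t : ℝ) :
    ∃ i c, Lv (2 * i + e) c (inj e (r * ω, t)) t (ω ^ 2) ∧ c ≤ 1 ∧ ∀ i', 1 ≤ 2 * i' + e →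
      3 ≤ 4 ^ (2 * i' + e) * t → 4 ^ (2 * i' + e) * t ≤ 12 → t ≤ 3 * r → 1 / 2 ≤ c := by
  obtain ⟨i, h1, h2⟩ := inj_eq e (r * ω, t)
  obtain ⟨ρ, hρ⟩ : ∃ ρ : ℝ, ρ = (8 ^ (2 * i + e) * r) ^ 2 * (1 + (8 ^ (2 * i + e) * r) ^ 2)⁻¹ :=
    ⟨_, rfl⟩
  have ρ0 : 0 ≤ ρ := by rw [hρ]; positivity
  have ρ1 : ρ ≤ 1 := by
    rw [hρ, ← div_eq_mul_inv, div_le_one (by positivity)]
    linarith
  refine ⟨i, chi (4 ^ (2 * i + e) * t) * ρ ^ 2 ^ (2 * i + e),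
    ⟨mul_nonneg (chi_nn _) (pow_nonneg ρ0 _), ?_, fun h => chi_ne (left_ne_zero_of_mul h)⟩,
    mul_le_one₀ (chi_le _) (pow_nonneg ρ0 _) (pow_le_one₀ ρ0 ρ1), fun i' a1 a2 a3 a4 => ?_⟩
  · have : nn (8 ^ (2 * i + e) * (r * ω)) = ρ * ω ^ 2 := by
      simp only [nn, hρ, norm_mul, norm_pow, Complex.norm_ofNat, norm_real, hω, mul_one,
        Real.norm_of_nonneg hr]
      push_cast
      ring
    rw [h1, term, this, mul_pow]
    push_cast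
    ring
  · obtain rfl := h2 i' (by rw [chi_one a2 a3]; exact one_ne_zero)
    rw [chi_one a2 a3, one_mul, hρ]
    refine rho_big a1 ?_
    rw [show (8 : ℝ) = 2 * 4 by norm_num, mul_pow, mul_assoc]
    refine le_mul_of_one_le_right (by positivity) ?_
    nlinarith [pow_pos (show (0 : ℝ) < 4 by norm_num) (2 * i' + e)]

end Vale.Agent.P103
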