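import Vale.Agent.P103.Dyn

/-!
The total advance of the clock is bounded: captured orbits.
-/

open Complex Real Metric Finset
open scoped ComplexConjugate

namespace Vale.Agent.P103

theorem Lv.zero (j : ℕ) (t : ℝ) (ω : ℂ) : Lv j 0 0 t ω := ⟨le_rfl, by simp, fun h => absurd rfl h⟩

theorem Lv.eq_zero {j : ℕ} {t : ℝ} {y ω : ℂ} (h : Lv j 0 y t ω) : y = 0 := by simpa using h.2.1

theorem Lv.t_le {j : ℕ} {c t : ℝ} {y ω : ℂ} (h : Lv (j + 1) c y t ω) (hc : 1 / 2 ≤ c) (ht : 0 ≤ t) :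
    t ≤ 4 := by
  have h1 := (h.2.2 (by linarith)).2
  have h2 : (4 : ℝ) ≤ 4 ^ (j + 1) := le_self_pow₀ (by norm_num) j.succ_ne_zero
  nlinarith

theorem Lv.norm_le {j : ℕ} {c t : ℝ} {y ω : ℂ} (h : Lv (j + 1) c y t ω) (hc : c ≤ 13)
    (hω : ‖ω‖ = 1) (ht : 0 ≤ t) : ‖y‖ ^ 2 ≤ 1 ∧ ‖y‖ ^ 2 ≤ 7 * t := by
  have h1 : ‖y‖ = c * (1 / 32) ^ (j + 1) := by
    rw [h.2.1]
    simp [hω, abs_of_nonneg h.1]
  have h2 : ((1 : ℝ) / 32) ^ (j + 1) ≤ 1 / 32 :=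
    pow_le_of_le_one (by norm_num) (by norm_num) j.succ_ne_zero
  have h3 : (0 : ℝ) ≤ (1 / 32) ^ (j + 1) := by positivity
  have h4 : ‖y‖ ≤ 1 := by nlinarith [h.1]
  have h5 : ‖y‖ ≤ 7 * t := by
    by_cases h0 : c = 0
    · rw [h1, h0]
      linarith
    have a1 := (h.2.2 h0).1
    have a2 : ((1 : ℝ) / 32) ^ (j + 1) * 4 ^ (j + 1) ≤ 1 := by
      rw [← mul_pow]
      exact pow_le_one₀ (by norm_num) (by norm_num)
    have a3 : ((1 : ℝ) / 32) ^ (j + 1) * 2 ≤ t := by nlinarith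
    nlinarith
  constructor <;> nlinarith [norm_nonneg y]

theorem exists_level {t : ℝ} (h0 : 0 < t) (h1 : t ≤ 3) :
    ∃ j : ℕ, 3 ≤ 4 ^ (j + 1) * t ∧ 4 ^ (j + 1) * t ≤ 12 := by
  have h : ∃ j : ℕ, 3 ≤ 4 ^ (j + 1) * t := by
    obtain ⟨j, hj⟩ := pow_unbounded_of_one_lt (3 / t) (show (1 : ℝ) < 4 by norm_num)
    rw [div_lt_iff₀ h0] at hj
    exact ⟨j, by rw [pow_succ]; linarith⟩
  refine ⟨Nat.find h, Nat.find_spec h, ?_⟩
  rcases hj : Nat.find h with _ | j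
  · rw [zero_add, pow_one]
    linarith
  · have := Nat.find_min h (show j < Nat.find h by omega)
    rw [pow_succ _ (j + 1)]
    linarith

theorem bb_bound {x : M} {r : ℝ} {ω : ℂ} (hs : 0 < (co x).2.1) (hr : 0 < r) (hω : ‖ω‖ = 1)
    (h : (co x).1 = (co x).2.1 * (r * ω)) : (co x).2.1 * (1 + r ^ 2) = 2 ∧
      (1 / 2) ^ 256 * min 1 r ^ 512 ≤ bb (co x).2.1 ∧ bb (co x).2.1 ≤ min 1 r ^ 512 := by
  have h1 := (ok x).on
  rw [h, norm_mul, norm_mul, hω, norm_real, norm_real, Real.norm_of_nonneg hs.le,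
    Real.norm_of_nonneg hr.le] at h1
  have h2 : (co x).2.1 * (1 + r ^ 2) = 2 := mul_left_cancel₀ hs.ne' (by linarith)
  have h3 : 1 / 2 * min 1 r ^ 2 ≤ 1 - (co x).2.1 / 2 ∧ 1 - (co x).2.1 / 2 ≤ min 1 r ^ 2 := by
    rcases le_total 1 r with h | h
    · have : 1 ≤ r ^ 2 := one_le_pow₀ h
      rw [min_eq_left h]
      constructor <;> nlinarith
    · have : r ^ 2 ≤ 1 := pow_le_one₀ hr.le h
      have : 1 ≤ (co x).2.1 := by nlinarith
      rw [min_eq_right h]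
      constructor <;> nlinarith [(ok x).s2]
  rw [show 512 = 2 * 256 from rfl, pow_mul, ← mul_pow]
  exact ⟨h2, pow_le_pow_left₀ (by positivity) h3.1 _,
    pow_le_pow_left₀ (by linarith [(ok x).s2]) h3.2 _⟩

theorem hem_ff (x : M) : 1 - (ff x).2.2.1 5 ≤ ((co (ff x)).2.2.2.1 ^ 2 +
    ‖(co (ff x)).2.2.2.2.1‖ ^ 2 + ‖(co (ff x)).2.2.2.2.2‖ ^ 2) / 10 ^ 6 := by
  have h1 := (ok x).rr_lt
  have h2 : 0 ≤ rr (co x) := by unfold rr; positivity
  rw [ff_t, ff_z, ff_w, ff_y, ← rr, sub_le_comm]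
  exact le_sqrt_of_sq_le (by nlinarith)

theorem ff_ray {x : M} {r e : ℝ} {ω : ℂ} (hg : gam (co x).2.1 = 1)
    (h : (co x).1 = (co x).2.1 * (r * ω)) (he : EE (co x) = e * ω ^ 2) :
    (co (ff x)).1 = (co (ff x)).2.1 * ((r ^ 2 + e : ℝ) * ω ^ 2) := by
  rw [ff_xi, ff_s, PP, hg, he, h]
  push_cast
  ring

structure Inv (x : M) (u r : ℝ) (ω : ℂ) : Prop where
  cl : Cl x u
  u0 : -12 ≤ u
  s0 : 2 ≤ 10 ^ 6 * (co x).2.1
  r0 : 0 < r
  ω1 : ‖ω‖ = 1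
  xi : (co x).1 = (co x).2.1 * (r * ω)
  hem : 1 - x.2.2.1 5 ≤
    ((co x).2.2.2.1 ^ 2 + ‖(co x).2.2.2.2.1‖ ^ 2 + ‖(co x).2.2.2.2.2‖ ^ 2) / 10 ^ 6
  t0 : 0 ≤ (co x).2.2.2.1
  lv : ∃ i1 c1 i2 c2, Lv (2 * i1 + 1) c1 (co x).2.2.2.2.1 (co x).2.2.2.1 ω ∧
    Lv (2 * i2 + 2) c2 (co x).2.2.2.2.2 (co x).2.2.2.1 ω ∧ c1 ≤ min u 0 + 13 ∧
    c2 ≤ min u 0 + 13 ∧ (u ≤ -6 → c1 = 0 ∧ c2 = 0) ∧ (-3 < u → 1 / 2 ≤ c1 ∨ 1 / 2 ≤ c2)
  up : u ≤ -3 → ∃ l : ℕ, l ≤ 9 ∧ -3 - u ≤ l ∧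
    (co x).2.2.2.1 ≤ (1 / 5) ^ (l + 1) * min 1 r ^ 2 ^ l
  lo : -7 < u → kk * min 1 r ^ 512 ≤ (co x).2.2.2.1
  ut : u ≤ (co x).2.2.2.1

namespace Inv

variable {x : M} {u r : ℝ} {ω : ℂ} (h : Inv x u r ω)
include h

theorem nu0 : 0 < min 1 r := lt_min one_pos h.r0

theorem t5 (hu : u ≤ -3) : (co x).2.2.2.1 ≤ 1 / 5 := by
  obtain ⟨l, -, -, h1⟩ := h.up hu
  have h2 : ((1 : ℝ) / 5) ^ (l + 1) ≤ 1 / 5 :=
    pow_le_of_le_one (by norm_num) (by norm_num) l.succ_ne_zero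
  exact h1.trans ((mul_le_of_le_one_right (by positivity)
    (pow_le_one₀ h.nu0.le (min_le_left _ _))).trans h2)

theorem t4 : (co x).2.2.2.1 ≤ 4 := by
  rcases le_or_gt u (-3) with hu | hu
  · linarith [h.t5 hu]
  · obtain ⟨i1, c1, i2, c2, h1, h2, -, -, -, h3⟩ := h.lv
    exact (h3 hu).elim (h1.t_le · h.t0) (h2.t_le · h.t0)

theorem zn_eq (g : ℝ → ℝ) : zn g x.2.1 = g u :=
  h.cl.zn_eq (by linarith [h.u0]) (by linarith [h.ut, h.t4]) g

theorem gam1 : gam (co x).2.1 = 1 := sT1 (by linarith [h.s0])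

theorem zw : (‖(co x).2.2.2.2.1‖ ^ 2 ≤ 1 ∧ ‖(co x).2.2.2.2.1‖ ^ 2 ≤ 7 * (co x).2.2.2.1) ∧
    ‖(co x).2.2.2.2.2‖ ^ 2 ≤ 1 ∧ ‖(co x).2.2.2.2.2‖ ^ 2 ≤ 7 * (co x).2.2.2.1 := by
  obtain ⟨i1, c1, i2, c2, h1, h2, h3, h4, -⟩ := h.lv
  have := min_le_right u 0
  exact ⟨h1.norm_le (by linarith) h.ω1 h.t0, h2.norm_le (by linarith) h.ω1 h.t0⟩

theorem mu_eq : mu (co x) = bump (-11) 6 u := by
  rw [mu, h.gam1, sT1 (by nlinarith [h.zw.1.1, h.zw.2.1, h.t4, h.t0]), one_mul, mul_one]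
  exact h.zn_eq (bump (-11) 6)

theorem mu1 (hu : -10 ≤ u) : mu (co x) = 1 := by
  rw [h.mu_eq, bump1 (by linarith) (by linarith [h.ut, h.t4])]

theorem t1_eq : t1 (co x) = 4 * bump (-11) 6 u * (co x).2.2.2.1 +
    bump (-10) (-6) u * ((1 / 5) ^ 10 * bb (co x).2.1) := by
  rw [t1, h.mu_eq, h.gam1, one_mul, ← h.zn_eq (bump (-10) (-6))]
  rfl

theorem s_pos : 0 < (co x).2.1 := by linarith [h.s0]

theorem bb_le : bb (co x).2.1 ≤ min 1 r ^ 512 := (bb_bound h.s_pos h.r0 h.ω1 h.xi).2.2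

theorem t1_ge (hu : -10 ≤ u) : 4 * (co x).2.2.2.1 ≤ t1 (co x) := by
  have := mul_nonneg (bump_nn (-10) (-6) u) (mul_nonneg (by positivity : (0 : ℝ) ≤ (1 / 5) ^ 10)
    (ok x).bb0)
  rw [h.t1_eq, ← h.mu_eq, h.mu1 hu]
  linarith

theorem t1_nn : 0 ≤ t1 (co x) := by
  have := (ok x).bb0
  have := h.t0
  have := bump_nn (-11) 6 u
  have := bump_nn (-10) (-6) u
  rw [h.t1_eq]
  positivity

theorem t1_le {l : ℕ} (hl : l ≤ 9) (h1 : (co x).2.2.2.1 ≤ (1 / 5) ^ (l + 1) * min 1 r ^ 2 ^ l) :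
    t1 (co x) ≤ (1 / 5) ^ l * min 1 r ^ 2 ^ l := by
  have a1 : ((1 : ℝ) / 5) ^ 10 ≤ (1 / 5) ^ (l + 1) :=
    pow_le_pow_of_le_one (by norm_num) (by norm_num) (by omega)
  have a2 : min 1 r ^ 512 ≤ min 1 r ^ 2 ^ l := pow_le_pow_of_le_one h.nu0.le (min_le_left _ _)
    (Nat.pow_le_pow_right two_pos hl)
  have a3 := mul_le_mul a1 (h.bb_le.trans a2) (ok x).bb0 (by positivity)
  have a4 := mul_le_of_le_one_left h.t0 (bump_le (-11) 6 u)
  have a5 := mul_le_of_le_one_left (mul_nonneg (by positivity : (0 : ℝ) ≤ (1 / 5) ^ 10)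
    (ok x).bb0) (bump_le (-10) (-6) u)
  rw [h.t1_eq]
  rw [pow_succ _ l] at a3 h1
  linarith

theorem t1_small (hu : u ≤ -3) : t1 (co x) ≤ min 1 r := by
  obtain ⟨l, h1, -, h2⟩ := h.up hu
  exact (h.t1_le h1 h2).trans ((mul_le_of_le_one_left (pow_nonneg h.nu0.le _)
    (pow_le_one₀ (by norm_num) (by norm_num))).trans
    (pow_le_of_le_one h.nu0.le (min_le_left _ _) (by positivity)))

theorem adv1 (hu : u ≤ -2) : 1 ≤ adv x := by
  have := adv_ge x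
  rwa [h.zn_eq, aa1 (by rw [abs_of_nonpos (by linarith)]; linarith)] at this

theorem vh_eq : vh (co x).1 (co x).2.1 = r * ω := by
  have := ofReal_ne_zero.2 h.s_pos.ne'
  rw [vh, iv, sT1 (by linarith [h.s0]), h.xi, add_sub_cancel_right]
  push_cast
  field_simp

theorem ut' : u + adv x ≤ t1 (co x) := by
  rcases le_or_gt u (-7) with hu | hu
  · linarith [adv_le x, h.t1_nn]
  have a1 := h.t1_ge (by linarith)
  have a2 := h.cl.aa_le
  have a3 : |u| ≤ 2 * (co x).2.2.2.1 - u := abs_le.2 ⟨by linarith [h.t0], by linarith [h.ut]⟩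
  have a4 := mul_le_mul_of_nonneg_left
    (mul_le_mul h.bb_le (ok x).s2 h.s_pos.le (pow_nonneg h.nu0.le _)) kk_pos.le
  have a5 := h.lo hu
  have a6 := h.hem
  have a7 : (co x).2.2.2.1 ^ 2 ≤ 4 * (co x).2.2.2.1 := by nlinarith [h.t0, h.t4]
  rw [adv]
  linarith [h.zw.1.2, h.zw.2.2, h.t0]

theorem old : ∃ i1 c1 i2 c2, ∃ e : ℝ, Lv (2 * i1 + 1) c1 (32 * (mu (co x) * (co x).2.2.2.2.2))
      (t1 (co x)) (ω ^ 2) ∧
    Lv (2 * i2 + 2) c2 (32 * ((mu (co x) * (1 - be (co x).2.2.2.1) : ℝ) * (co x).2.2.2.2.1))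
      (t1 (co x)) (ω ^ 2) ∧ c1 ≤ min u 0 + 13 ∧ c2 ≤ min u 0 + 13 ∧
    (u ≤ -6 → c1 = 0 ∧ c2 = 0) ∧ (-3 < u → 1 / 2 ≤ c1 ∨ 1 / 2 ≤ c2 ∨ 1000 ≤ e) ∧ 0 ≤ e ∧
    EE (co x) = e * ω ^ 2 ∧ (e ≠ 0 → 1 / 2 ≤ (co x).2.2.2.1) := by
  obtain ⟨i1, c1, i2, c2, h1, h2, h3, h4, h5, h6⟩ := h.lv
  rcases le_or_gt u (-6) with hu | hu
  · obtain ⟨rfl, rfl⟩ := h5 hu
    exact ⟨0, 0, 0, 0, 0, by simpa [h2.eq_zero] using Lv.zero _ _ _,
      by simpa [h1.eq_zero] using Lv.zero _ _ _, h3, h3, fun _ => ⟨rfl, rfl⟩,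
      fun _ => by linarith, le_rfl, by simp [EE, h1.eq_zero], fun h => absurd rfl h⟩
  have a1 := h.mu1 (by linarith)
  have a2 : t1 (co x) = 4 * (co x).2.2.2.1 := by
    rw [h.t1_eq, ← h.mu_eq, a1, bump0 (Or.inr hu.le)]
    ring
  rw [a1, a2, EE, a1, ofReal_one, one_mul, one_mul]
  refine ⟨i2, c2, ?_⟩
  by_cases h0 : c1 = 0
  · subst h0
    exact ⟨0, 0, 0, h2.step, by simpa [h1.eq_zero] using Lv.zero _ _ _, h4, h3,
      fun _ => by linarith, fun hu => Or.inl ((h6 hu).resolve_left (by norm_num)), le_rfl,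
      by simp [h1.eq_zero], fun h => absurd rfl h⟩
  rcases i1 with _ | i1
  · have a3 : 1 / 2 ≤ (co x).2.2.2.1 := by
      have := (h1.2.2 h0).1
      rw [mul_zero, zero_add, pow_one] at this
      linarith
    have a4 : be (co x).2.2.2.1 = 1 := sT1 (by linarith)
    refine ⟨0, 0, 2000 * c1, h2.step, by simpa [a4] using Lv.zero _ _ _, h4, h1.1.trans h3,
      fun _ => by linarith, fun hu => (h6 hu).elim (fun h => Or.inr (Or.inr (by linarith))) Or.inl,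
      by linarith [h1.1], ?_, fun _ => a3⟩
    rw [a4, h1.2.1]
    push_cast
    ring
  · have a3 : (4 : ℝ) ^ 3 ≤ 4 ^ (2 * (i1 + 1) + 1) := pow_le_pow_right₀ (by norm_num) (by omega)
    have a4 : be (co x).2.2.2.1 = 0 := sT0 (by nlinarith [(h1.2.2 h0).2, h.t0])
    exact ⟨i1, c1, 0, h2.step, by simpa [a4] using Lv.step (j := 2 * i1 + 2) h1, h4, h3,
      fun _ => by linarith, fun hu => (h6 hu).elim (fun h => Or.inr (Or.inl h)) Or.inl, le_rfl,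
      by simp [a4], fun h => absurd rfl h⟩

theorem step (hs : 2 ≤ 10 ^ 6 * (co (ff x)).2.1) : ∃ r', Inv (ff x) (u + adv x) r' (ω ^ 2) := by
  obtain ⟨i1, c1, i2, c2, e, h1, h2, h3, h4, h5, h6, e0, he, e1⟩ := h.old
  have r0 : 0 < r ^ 2 + e := by have := h.r0; positivity
  have ω1 : ‖ω ^ 2‖ = 1 := by rw [norm_pow, h.ω1, one_pow]
  have xi := ff_ray h.gam1 h.xi he
  have a0 := adv_nn x
  have a1 := adv_le x
  have sq : min 1 (r ^ 2 + 0) = min 1 r ^ 2 := by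
    rcases le_total 1 r with hr | hr
    · rw [add_zero, min_eq_left hr, min_eq_left (one_le_pow₀ hr), one_pow]
    · rw [add_zero, min_eq_right hr, min_eq_right (pow_le_one₀ h.r0.le hr)]
  refine ⟨r ^ 2 + e, h.cl.step, by linarith [h.u0], hs, r0, ω1, xi, hem_ff x,
    ff_t x ▸ h.t1_nn, ?_, fun hu => ?_, fun hu => ?_, ff_t x ▸ h.ut'⟩
  · obtain ⟨j1, d1, b1, b2, b3⟩ := lv_inj 1 h.r0.le h.ω1 (t1 (co x))
    obtain ⟨j2, d2, b4, b5, b6⟩ := lv_inj 2 h.r0.le h.ω1 (t1 (co x))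
    have g0 := bump_nn (-6) (-2) u
    obtain ⟨k1, f1⟩ := h1.add (b1.smul g0)
    obtain ⟨k2, f2⟩ := h2.add (b4.smul g0)
    have g1 : gam (co x).2.1 * (co x).2.2.1.2.2 = bump (-6) (-2) u := by
      rw [h.gam1, one_mul]
      exact h.zn_eq (bump (-6) (-2))
    have g2 : ∀ d ≤ 1, min u 0 + bump (-6) (-2) u * d ≤ min (u + adv x) 0 := fun d hd => by
      rcases le_total u (-2) with hu | hu
      · have := h.adv1 hu
        have := (mul_le_of_le_one_right g0 hd).trans (bump_le _ _ _)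
        rw [min_eq_left (by linarith)]
        exact le_min (by linarith) (by linarith)
      · rw [bump0 (Or.inr hu), zero_mul, add_zero]
        exact min_le_min_right _ (by linarith)
    rw [ff_t, ff_z, ff_w, z1, w1, g1, h.vh_eq]
    refine ⟨k1, _, k2, _, f1, f2, by linarith [g2 _ b2], by linarith [g2 _ b5], fun hu => ?_,
      fun hu => ?_⟩
    · rw [bump0 (Or.inl (by linarith)), (h5 (by linarith)).1, (h5 (by linarith)).2]
      simp
    rcases le_or_gt u (-3) with hu' | hu'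
    · have p1 := h.t1_small hu'
      have p2 : 0 < t1 (co x) := by
        have := mul_pos kk_pos (pow_pos h.nu0 512)
        linarith [h.lo (by linarith), h.t1_ge (by linarith)]
      obtain ⟨j, p3, p4⟩ := exists_level p2 (by linarith [min_le_left 1 r])
      have p5 : t1 (co x) ≤ 3 * r := by linarith [min_le_right 1 r, h.r0]
      rw [bump1 (by linarith) (by linarith), one_mul, one_mul]
      obtain ⟨i, rfl | rfl⟩ := Nat.even_or_odd' j
      · exact Or.inl (by linarith [b3 i (by omega) p3 p4 p5, h1.1])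
      · exact Or.inr (by linarith [b6 i (by omega) p3 p4 p5, h2.1])
    · rcases h6 hu' with p | p | p
      · exact Or.inl (by linarith [mul_nonneg g0 b1.1])
      · exact Or.inr (by linarith [mul_nonneg g0 b4.1])
      · have p1 := (bb_bound (by linarith) r0 ω1 xi).1
        have p2 : 1000 ^ 2 ≤ (r ^ 2 + e) ^ 2 := pow_le_pow_left₀ (by norm_num) (by nlinarith) 2
        nlinarith
  · have p1 := h.adv1 (by linarith)
    obtain ⟨l, p2, p3, p4⟩ := h.up (by linarith)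
    obtain rfl : e = 0 := by_contra fun h0 => by linarith [e1 h0, h.t5 (by linarith)]
    rcases l with _ | l
    · simp only [Nat.cast_zero] at p3
      linarith
    · refine ⟨l, by omega, by push_cast at p3; linarith, ?_⟩
      rw [ff_t, sq, ← pow_mul, ← pow_succ']
      exact h.t1_le p2 p4
  · rw [ff_t]
    have p0 := h.t1_ge (by linarith)
    by_cases h0 : e = 0
    · subst h0
      have p1 : min 1 (r ^ 2 + 0) ^ 512 ≤ min 1 r ^ 512 := by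
        rw [sq]
        exact pow_le_pow_left₀ (sq_nonneg _)
          (pow_le_of_le_one h.nu0.le (min_le_left _ _) two_ne_zero) _
      refine (mul_le_mul_of_nonneg_left p1 kk_pos.le).trans ?_
      rcases le_or_gt u (-7) with hu' | hu'
      · have p2 := mul_nonneg (bump_nn (-11) 6 u) h.t0
        have p3 := mul_le_mul_of_nonneg_left (bb_bound h.s_pos h.r0 h.ω1 h.xi).2.1
          (by positivity : (0 : ℝ) ≤ (1 / 5) ^ 10)
        rw [h.t1_eq, bump1 (a := -10) (by linarith) (by linarith), kk, mul_assoc, one_mul]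
        exact p3.trans (le_add_of_nonneg_left (by linarith))
      · linarith [h.lo hu', h.t0]
    · have p1 : kk * min 1 (r ^ 2 + e) ^ 512 ≤ 1 := mul_le_one₀ (by norm_num [kk])
        (pow_nonneg (le_min zero_le_one r0.le) _)
        (pow_le_one₀ (le_min zero_le_one r0.le) (min_le_left _ _))
      linarith [e1 h0]

theorem bd : Bd x 62 := by
  refine (run (J := fun x u => ∃ r ω, Inv x u r ω) (U := 4) (B := 46) (by norm_num)
    (fun x u ⟨r, ω, h⟩ => ⟨h.ut.trans h.t4, ?_⟩) ⟨r, ω, h⟩).mono (by linarith [h.u0])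
  rcases le_or_gt 2 (10 ^ 6 * (co (ff x)).2.1) with hs | hs
  · obtain ⟨r', h'⟩ := h.step hs
    exact Or.inr ⟨r', _, h'⟩
  · exact Or.inl ((esc_bd hs).step.mono (by norm_num))

end Inv

theorem capture {x : M} {u : ℝ} (h : Cl x u) (h1 : -13 ≤ u) (h2 : u ≤ -11) : Bd x 64 := by
  have z := h.zn_eq (by linarith) (by linarith)
  have a1 : (co x).2.2.1.1 = 0 := (z _).trans (bump0 (Or.inl h2))
  have a2 : (co x).2.2.1.2.1 = 0 := (z _).trans (bump0 (Or.inl (by linarith)))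
  obtain ⟨a3, a4, -⟩ := ff_zero (x := x) (Or.inl (by simp [mu, a1])) (by simp [a2])
  refine Bd.mono (Bd.step (B := 62) ?_) (by norm_num)
  rcases le_or_gt 2 (10 ^ 6 * (co (ff x)).2.1) with hs | hs
  swap
  · exact (esc_bd hs).mono (by norm_num)
  by_cases h0 : (co (ff x)).1 = 0
  · exact (Stop.bd ⟨h0, a3, a4⟩).mono (by norm_num)
  have a5 : 0 < (co (ff x)).2.1 := by linarith
  have a6 := norm_pos_iff.2 h0
  have a7 := adv_ge x
  rw [z, aa1 (by rw [abs_of_nonpos (by linarith)]; linarith)] at a7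
  have a8 := adv_le x
  refine Inv.bd (u := u + adv x) (r := ‖(co (ff x)).1‖ / (co (ff x)).2.1)
    (ω := (co (ff x)).1 / ‖(co (ff x)).1‖) ⟨h.step, by linarith, hs, by positivity,
    by simp [a6.ne'], ?_, hem_ff x, by simp [a3], ⟨0, 0, 0, 0, by simpa [a3] using Lv.zero _ _ _,
    by simpa [a3] using Lv.zero _ _ _, ?_, ?_, fun _ => ⟨rfl, rfl⟩, fun _ => by linarith⟩,
    fun _ => ⟨9, le_rfl, by push_cast; linarith, by rw [a3]; positivity⟩, fun _ => by linarith,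
    by rw [a3, Prod.fst_zero]; linarith⟩
  · have := ofReal_ne_zero.2 a5.ne'
    have := ofReal_ne_zero.2 a6.ne'
    push_cast
    field_simp
  all_goals rw [min_eq_left (by linarith)]; linarith

theorem bd_all (x : M) : Bd x 104 := by
  obtain ⟨u, h1, h2, h3⟩ := exists_cl x (-11)
  refine (run (J := fun x u => Cl x u ∧ u ≤ -11) (U := -11) (B := 64) (by norm_num)
    (fun x u ⟨a1, a2⟩ => ⟨a2, ?_⟩) ⟨h1, h3⟩).mono (by linarith)
  rcases le_total u (-13) with h | h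
  · exact Or.inr ⟨a1.step, by linarith [adv_le x]⟩
  · exact Or.inl (capture a1 h a2)

end Vale.Agent.P103
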