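import Vale.Agent.P103.Inv
import Vale.Agent.P103.Entropy

/-!
Zero entropy of the map.
-/

open Complex Real Metric Finset
open scoped ComplexConjugate

namespace Vale.Agent.P103

theorem eq_single {n : ℕ} (v : sphere (0 : E n) 1) {i : Fin n} {c : ℝ} (hc : c ^ 2 = 1)
    (h : v.1 i = c) : v.1 = EuclideanSpace.single i c := by
  have h1 := norm_sub_sq_real v.1 (EuclideanSpace.single i c)
  rw [norm_eq_of_mem_sphere v, EuclideanSpace.inner_single_right, h, EuclideanSpace.norm_single,
    Real.norm_eq_abs, sq_abs, hc, conj_trivial, ← sq, hc] at h1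
  exact sub_eq_zero.1 (norm_eq_zero.1 (pow_eq_zero_iff two_ne_zero |>.1 (by linarith)))

noncomputable def pt (c : ℝ) (hc : c ^ 2 = 1) : M :=
  (⟨EuclideanSpace.single 2 c, by
    rcases sq_eq_one_iff.1 hc with h | h <;> simp [h]⟩, 1, pole)

theorem eq_pt {x : M} {c : ℝ} (hc : c ^ 2 = 1) (h1 : (co x).2.1 = 1 - c) (h2 : x.2.1 = 1)
    (h3 : x.2.2.1 5 = 1) : x = pt c hc :=
  Prod.ext (Subtype.ext (eq_single _ hc (sub_right_injective h1)))
    (Prod.ext h2 (Subtype.ext (eq_single _ (one_pow 2) h3)))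

theorem fix_pt {c : ℝ} (hc : c ^ 2 = 1) : ff (pt c hc) = pt c hc := by
  have h : Stop (pt c hc) := ⟨by simp [co, pt], by simp [co, pt, pole], by simp [pt, pole]⟩
  have h1 : (co (pt c hc)).2.1 = 1 - c := by simp [co, pt]
  refine eq_pt hc ?_ ?_ h.step.2.2
  · rw [ff_s, den, DD, EE, h.2.1, ← h1]
    rcases h.cases with h2 | h2 <;> rw [h2]
    · simp
    · rw [gam, sT1 (by norm_num)]
      norm_num
  · change _ * Circle.exp (_ * adv _) = 1
    rw [h.adv]
    simp [pt, zn, aa, sT0]

theorem adv_zero {x : M} (h : adv x = 0) :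
    x = pt (-1) neg_one_sq ∨ x = pt 1 (one_pow 2) := by
  have h1 : 0 ≤ zn aa x.2.1 := aa_nn _
  have h2 := mid_nn x
  have h3 := (abs_le.1 (y_le x)).2
  rw [adv] at h
  have h4 : x.2.1 = 1 := by
    have := aa_zero (show zn aa x.2.1 = 0 by linarith)
    rw [← Circle.exp_arg x.2.1, (mul_eq_zero.1 this).resolve_right (by positivity), Circle.exp_zero]
  have h5 : kk * (bb (co x).2.1 * (co x).2.1) = 0 := by linarith
  rcases mul_eq_zero.1 ((mul_eq_zero.1 h5).resolve_left kk_pos.ne') with h6 | h6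
  · exact Or.inl (eq_pt _ (by linarith [pow_eq_zero_iff (by norm_num) |>.1 h6]) h4 (by linarith))
  · exact Or.inr (eq_pt _ (by linarith) h4 (by linarith))

theorem entropy_ff : Dynamics.coverEntropy ff Set.univ = 0 :=
  entropy_zero cm_ff.continuous cm_adv.continuous adv_nn bd_all (fun h => by
    have := congrArg (fun x : M => x.1.1 2) h
    norm_num [pt] at this) (fix_pt neg_one_sq) (fix_pt (one_pow 2)) fun _ => adv_zero

end Vale.Agent.P103
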