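import Vale.Agent.P103.Inj

/-!
The map.
-/

open Complex Real Metric
open scoped ComplexConjugate Manifold

namespace Vale.Agent.P103

abbrev E (n : ℕ) : Type := EuclideanSpace ℝ (Fin n)

abbrev M : Type := sphere (0 : E 3) 1 × Circle × sphere (0 : E 6) 1

abbrev A : Type := ℂ × ℝ × (ℝ × ℝ × ℝ) × ℝ × ℂ × ℂ

noncomputable def gam (s : ℝ) : ℝ := sT (10 ^ 6 * s - 1)

noncomputable def iv (s : ℝ) : ℝ := (s ^ 2 + 1 - sT (10 ^ 6 * s))⁻¹

noncomputable def vh (ξ : ℂ) (s : ℝ) : ℂ := ξ * (s * iv s : ℝ)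

noncomputable def bb (s : ℝ) : ℝ := (1 - s / 2) ^ 256

noncomputable def be (t : ℝ) : ℝ := sT (4 * t - 1)

noncomputable def mu (a : A) : ℝ := gam a.2.1 * a.2.2.1.1 *
  sT (2 - (a.2.2.2.1 ^ 2 + ‖a.2.2.2.2.1‖ ^ 2 + ‖a.2.2.2.2.2‖ ^ 2) / 25)

noncomputable def t1 (a : A) : ℝ :=
  4 * mu a * a.2.2.2.1 + gam a.2.1 * a.2.2.1.2.1 * ((1 / 5) ^ 10 * bb a.2.1)

noncomputable def z1 (a : A) : ℂ := 32 * (mu a * a.2.2.2.2.2) +
  (gam a.2.1 * a.2.2.1.2.2 : ℝ) * inj 1 (vh a.1 a.2.1, t1 a)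

noncomputable def w1 (a : A) : ℂ := 32 * ((mu a * (1 - be a.2.2.2.1) : ℝ) * a.2.2.2.2.1) +
  (gam a.2.1 * a.2.2.1.2.2 : ℝ) * inj 2 (vh a.1 a.2.1, t1 a)

noncomputable def EE (a : A) : ℂ := (64000 * mu a * be a.2.2.2.1 : ℝ) * a.2.2.2.2.1

noncomputable def PP (a : A) : ℂ := a.1 ^ 2 + EE a * a.2.1 ^ 2

noncomputable def DD (a : A) : ℝ :=
  (2 - a.2.1) ^ 2 + 2 * (a.1 ^ 2 * conj (EE a)).re + ‖EE a‖ ^ 2 * a.2.1 ^ 2

noncomputable def den (a : A) : ℝ := DD a + a.2.1 ^ 2 * gam a.2.1 ^ 2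

noncomputable def out1 (a : A) : E 3 :=
  !₂[2 * gam a.2.1 * (PP a).re / den a, 2 * gam a.2.1 * (PP a).im / den a,
    1 - 2 * a.2.1 ^ 2 * gam a.2.1 ^ 2 / den a]

noncomputable def rr (a : A) : ℝ := t1 a ^ 2 + ‖z1 a‖ ^ 2 + ‖w1 a‖ ^ 2

noncomputable def out3 (a : A) : E 6 :=
  !₂[t1 a / 1000, (z1 a).re / 1000, (z1 a).im / 1000, (w1 a).re / 1000, (w1 a).im / 1000,
    √(1 - rr a / 10 ^ 6)]

@[fun_prop] theorem cd_re : ContDiff ℝ 1 fun x : ℂ => x.re := reCLM.contDiff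
@[fun_prop] theorem cd_im : ContDiff ℝ 1 fun x : ℂ => x.im := imCLM.contDiff
@[fun_prop] theorem cd_conj : ContDiff ℝ 1 fun x : ℂ => conj x := conjCLE.contDiff
@[fun_prop] theorem cd_gam : ContDiff ℝ 1 gam := by unfold gam; fun_prop
@[fun_prop] theorem cd_bb : ContDiff ℝ 1 bb := by unfold bb; fun_prop
@[fun_prop] theorem cd_be : ContDiff ℝ 1 be := by unfold be; fun_prop

@[fun_prop] theorem cd_iv : ContDiff ℝ 1 iv := by
  refine ContDiff.inv (by fun_prop) fun s => ?_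
  by_cases h : s = 0
  · simp [h]
  · have := sT_le (10 ^ 6 * s)
    have := sq_pos_of_ne_zero h
    linarith

@[fun_prop] theorem cd_vh : ContDiff ℝ 1 fun p : ℂ × ℝ => vh p.1 p.2 := by unfold vh; fun_prop

@[fun_prop] theorem cd_mu : ContDiff ℝ 1 mu := by
  unfold mu
  simp only [Complex.sq_norm, normSq_apply]
  fun_prop

@[fun_prop] theorem cd_t1 : ContDiff ℝ 1 t1 := by unfold t1; fun_prop
@[fun_prop] theorem cd_z1 : ContDiff ℝ 1 z1 := by unfold z1; fun_prop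
@[fun_prop] theorem cd_w1 : ContDiff ℝ 1 w1 := by unfold w1; fun_prop
@[fun_prop] theorem cd_EE : ContDiff ℝ 1 EE := by unfold EE; fun_prop
@[fun_prop] theorem cd_PP : ContDiff ℝ 1 PP := by unfold PP; fun_prop

@[fun_prop] theorem cd_DD : ContDiff ℝ 1 DD := by
  unfold DD
  simp only [Complex.sq_norm, normSq_apply]
  fun_prop

@[fun_prop] theorem cd_den : ContDiff ℝ 1 den := by unfold den; fun_prop

@[fun_prop] theorem cd_rr : ContDiff ℝ 1 rr := by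
  unfold rr
  simp only [Complex.sq_norm, normSq_apply]
  fun_prop

theorem cd_out1 {a : A} (h : den a ≠ 0) : ContDiffAt ℝ 1 out1 a := by
  have h1 : ContDiffAt ℝ 1 (fun a => (den a)⁻¹) a := cd_den.contDiffAt.inv h
  refine contDiffAt_euclidean.2 fun i => ?_
  fin_cases i <;> simp only [out1, div_eq_mul_inv]
  · exact (ContDiff.contDiffAt (by fun_prop)).mul h1
  · exact (ContDiff.contDiffAt (by fun_prop)).mul h1
  · exact contDiffAt_const.sub ((ContDiff.contDiffAt (by fun_prop)).mul h1)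

theorem cd_out3 {a : A} (h : rr a < 10 ^ 6) : ContDiffAt ℝ 1 out3 a := by
  refine contDiffAt_euclidean.2 fun i => ?_
  fin_cases i <;> simp only [out3]
  · exact ContDiff.contDiffAt (f := fun a => t1 a / 1000) (by fun_prop)
  · exact ContDiff.contDiffAt (f := fun a => (z1 a).re / 1000) (by fun_prop)
  · exact ContDiff.contDiffAt (f := fun a => (z1 a).im / 1000) (by fun_prop)
  · exact ContDiff.contDiffAt (f := fun a => (w1 a).re / 1000) (by fun_prop)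
  · exact ContDiff.contDiffAt (f := fun a => (w1 a).im / 1000) (by fun_prop)
  · exact (ContDiff.contDiffAt (f := fun a => 1 - rr a / 10 ^ 6) (by fun_prop)).sqrt
      (by linarith)

/-- The admissible parameters. -/
structure Ok (a : A) : Prop where
  on : ‖a.1‖ ^ 2 = a.2.1 * (2 - a.2.1)
  l0 : 0 ≤ a.2.2.1.1
  l1 : a.2.2.1.1 ≤ 1
  t0 : 0 ≤ a.2.2.1.2.1
  t1 : a.2.2.1.2.1 ≤ 1
  x0 : 0 ≤ a.2.2.1.2.2
  x1 : a.2.2.1.2.2 ≤ 1

theorem gam_nn (s : ℝ) : 0 ≤ gam s := sT_nn _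
theorem gam_le (s : ℝ) : gam s ≤ 1 := sT_le _

namespace Ok

variable {a : A} (h : Ok a)
include h

theorem s0 : 0 ≤ a.2.1 := by nlinarith [h.on, sq_nonneg ‖a.1‖]
theorem s2 : a.2.1 ≤ 2 := by nlinarith [h.on, sq_nonneg ‖a.1‖]

theorem onC : a.1 * conj a.1 = a.2.1 * (2 - a.2.1) := by
  rw [mul_conj']
  exact_mod_cast h.on

theorem bb0 : 0 ≤ bb a.2.1 := pow_nonneg (by linarith [h.s2]) _
theorem bb1 : bb a.2.1 ≤ 1 := pow_le_one₀ (by linarith [h.s2]) (by linarith [h.s0])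

theorem mu0 : 0 ≤ mu a := mul_nonneg (mul_nonneg (gam_nn _) h.l0) (sT_nn _)

theorem mu_le {x : ℝ} (hx : x ^ 2 ≤ a.2.2.2.1 ^ 2 + ‖a.2.2.2.2.1‖ ^ 2 + ‖a.2.2.2.2.2‖ ^ 2) :
    mu a * |x| ≤ 8 := by
  by_cases h1 : a.2.2.2.1 ^ 2 + ‖a.2.2.2.2.1‖ ^ 2 + ‖a.2.2.2.2.2‖ ^ 2 ≤ 50
  · have h2 : mu a ≤ 1 := mul_le_one₀ (mul_le_one₀ (gam_le _) h.l0 h.l1) (sT_nn _) (sT_le _)
    have h3 : |x| ≤ 8 := abs_le_of_sq_le_sq' (by linarith) (by norm_num) |> abs_le.2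
    nlinarith [abs_nonneg x, h.mu0]
  · rw [mu, sT0 (by linarith)]
    norm_num

theorem mu_z : mu a * ‖a.2.2.2.2.1‖ ≤ 8 := by
  simpa using h.mu_le (x := ‖a.2.2.2.2.1‖) (by nlinarith)

theorem rr_lt : rr a < 10 ^ 6 := by
  have g : gam a.2.1 * a.2.2.1.2.2 ≤ 1 := mul_le_one₀ (gam_le _) h.x0 h.x1
  have g0 : 0 ≤ gam a.2.1 * a.2.2.1.2.2 := mul_nonneg (gam_nn _) h.x0
  have k : ∀ e p, ‖((gam a.2.1 * a.2.2.1.2.2 : ℝ) : ℂ) * inj e p‖ ≤ 1 := fun e p => by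
    rw [norm_mul, norm_real, Real.norm_of_nonneg g0]
    exact mul_le_one₀ g (norm_nonneg _) (norm_inj e p)
  have h1 : |P103.t1 a| ≤ 33 := by
    have a1 := h.mu_le (x := a.2.2.2.1) (by nlinarith)
    have a2 : gam a.2.1 * a.2.2.1.2.1 * ((1 / 5) ^ 10 * bb a.2.1) ≤ 1 :=
      mul_le_one₀ (mul_le_one₀ (gam_le _) h.t0 h.t1) (by have := h.bb0; positivity)
        (mul_le_one₀ (by norm_num) h.bb0 h.bb1)
    have a3 : 0 ≤ gam a.2.1 * a.2.2.1.2.1 * ((1 / 5) ^ 10 * bb a.2.1) :=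
      mul_nonneg (mul_nonneg (gam_nn _) h.t0) (by have := h.bb0; positivity)
    refine (abs_add_le _ _).trans ?_
    rw [abs_mul, abs_of_nonneg a3, abs_of_nonneg (by have := h.mu0; positivity)]
    linarith
  have h2 : ‖z1 a‖ ≤ 257 := by
    have a1 := h.mu_le (x := ‖a.2.2.2.2.2‖) (by nlinarith)
    refine (norm_add_le _ _).trans ?_
    have := k 1 (vh a.1 a.2.1, P103.t1 a)
    rw [norm_mul, norm_mul, norm_real, Real.norm_of_nonneg h.mu0, Complex.norm_ofNat]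
    rw [abs_norm] at a1
    linarith
  have h3 : ‖w1 a‖ ≤ 257 := by
    refine (norm_add_le _ _).trans ?_
    have := k 2 (vh a.1 a.2.1, P103.t1 a)
    have b1 : be a.2.2.2.1 ≤ 1 := sT_le _
    have b0 : 0 ≤ be a.2.2.2.1 := sT_nn _
    rw [norm_mul, norm_mul, norm_real, Real.norm_of_nonneg (mul_nonneg h.mu0 (by linarith)),
      Complex.norm_ofNat]
    nlinarith [h.mu_z, mul_nonneg b0 (mul_nonneg h.mu0 (norm_nonneg a.2.2.2.2.1))]
  have h4 := sq_le_sq' (abs_le.1 h1).1 (abs_le.1 h1).2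
  rw [rr]
  nlinarith [norm_nonneg (z1 a), norm_nonneg (w1 a)]

theorem DD_eq : (DD a : ℂ) =
    (2 - a.2.1) ^ 2 + (a.1 ^ 2 * conj (EE a) + conj a.1 ^ 2 * EE a) +
      EE a * conj (EE a) * a.2.1 ^ 2 := by
  have := add_conj (a.1 ^ 2 * conj (EE a))
  simp only [map_mul, map_pow, conj_conj] at this
  rw [this, mul_conj', DD]
  push_cast
  ring

theorem PP_sq : ‖PP a‖ ^ 2 = a.2.1 ^ 2 * DD a := by
  have : ((‖PP a‖ ^ 2 : ℝ) : ℂ) = (a.2.1 ^ 2 * DD a : ℝ) := by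
    push_cast
    rw [← mul_conj', h.DD_eq, PP]
    simp only [map_add, map_mul, map_pow, conj_ofReal]
    linear_combination (a.1 * conj a.1 + a.2.1 * (2 - a.2.1)) * h.onC
  exact_mod_cast this

omit h in
theorem EE_zero (hg : gam a.2.1 = 0) : EE a = 0 := by simp [EE, mu, hg]

omit h in
theorem small (hg : gam a.2.1 = 0) : 10 ^ 6 * a.2.1 ≤ 1 := by
  have := smoothTransition.zero_iff_nonpos.1 hg
  linarith

theorem den_pos : 0 < den a := by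
  by_cases hg : gam a.2.1 = 0
  · have := small hg
    simp only [den, DD, EE_zero hg, hg]
    simp only [map_zero, mul_zero, zero_re, norm_zero]
    nlinarith
  · have h1 : a.2.1 ≠ 0 := fun h1 => hg (by rw [h1, gam, sT0 (by norm_num)])
    have h2 : 0 ≤ DD a := by
      have := h.PP_sq
      have := sq_pos_of_ne_zero h1
      nlinarith [sq_nonneg ‖PP a‖]
    rw [den]
    positivity

theorem out1_mem : out1 a ∈ sphere (0 : E 3) 1 := by
  have h1 := h.den_pos.ne'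
  have h2 := h.PP_sq
  rw [Complex.sq_norm, normSq_apply] at h2
  rw [EuclideanSpace.sphere_zero_eq _ zero_le_one]
  simp only [out1, Fin.sum_univ_three, Set.mem_setOf_eq]
  change (_ / _) ^ 2 + (_ / _) ^ 2 + (1 - _ / _) ^ 2 = _
  field_simp
  rw [den]
  linear_combination 4 * gam a.2.1 ^ 2 * h2

theorem out3_mem : out3 a ∈ sphere (0 : E 6) 1 := by
  rw [EuclideanSpace.sphere_zero_eq _ zero_le_one]
  simp only [out3, Fin.sum_univ_six, Set.mem_setOf_eq]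
  change (_ / _) ^ 2 + (_ / _) ^ 2 + (_ / _) ^ 2 + (_ / _) ^ 2 + (_ / _) ^ 2 + √_ ^ 2 = _
  rw [sq_sqrt (by linarith [h.rr_lt]), rr, Complex.sq_norm, Complex.sq_norm, normSq_apply,
    normSq_apply]
  ring

end Ok

noncomputable def zn (g : ℝ → ℝ) (q : Circle) : ℝ := g (arg q * (20 / π))

noncomputable def bump (a b u : ℝ) : ℝ := sT (u - a) * sT (b - u)

noncomputable def aa (u : ℝ) : ℝ := sT (u ^ 2 - 1) + (1 - sT (u ^ 2 - 1)) * (u ^ 2 / 4)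

theorem bump_nn (a b u : ℝ) : 0 ≤ bump a b u := mul_nonneg (sT_nn _) (sT_nn _)
theorem bump_le (a b u : ℝ) : bump a b u ≤ 1 := mul_le_one₀ (sT_le _) (sT_nn _) (sT_le _)

theorem bump0 {a b u : ℝ} (h : u ≤ a ∨ b ≤ u) : bump a b u = 0 := by
  rcases h with h | h
  · rw [bump, sT0 (by linarith), zero_mul]
  · rw [bump, sT0 (x := b - u) (by linarith), mul_zero]

theorem bump1 {a b u : ℝ} (h : a + 1 ≤ u) (h' : u + 1 ≤ b) : bump a b u = 1 := by
  rw [bump, sT1 (by linarith), sT1 (by linarith), one_mul]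

theorem aa1 {u : ℝ} (h : 2 ≤ |u|) : aa u = 1 := by
  rw [aa, sT1 (by nlinarith [sq_abs u])]
  ring

theorem aa_le (u : ℝ) : aa u ≤ 1 := by
  by_cases h : 2 ≤ |u|
  · exact (aa1 h).le
  · have := sT_le (u ^ 2 - 1)
    have : u ^ 2 / 4 ≤ 1 := by nlinarith [sq_abs u, abs_nonneg u]
    rw [aa]
    nlinarith

theorem aa_abs (u : ℝ) : aa u ≤ |u| := by
  by_cases h : 1 ≤ |u|
  · exact (aa_le u).trans h
  · rw [aa, sT0 (by nlinarith [sq_abs u, abs_nonneg u])]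
    nlinarith [sq_abs u, abs_nonneg u]

theorem aa_nn (u : ℝ) : 0 ≤ aa u :=
  add_nonneg (sT_nn _) (mul_nonneg (sub_nonneg.2 (sT_le _)) (by positivity))

theorem aa_zero {u : ℝ} (h : aa u = 0) : u = 0 := by
  have h1 := sT_nn (u ^ 2 - 1)
  have h2 := mul_nonneg (sub_nonneg.2 (sT_le (u ^ 2 - 1))) (by positivity : 0 ≤ u ^ 2 / 4)
  have h3 : sT (u ^ 2 - 1) = 0 := by rw [aa] at h; linarith
  simpa [aa, h3] using h

noncomputable def co (m : M) : A :=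
  (m.1.1 0 + m.1.1 1 * I, 1 - m.1.1 2,
    (zn (bump (-11) 6) m.2.1, zn (bump (-10) (-6)) m.2.1, zn (bump (-6) (-2)) m.2.1),
    1000 * m.2.2.1 0, 1000 * (m.2.2.1 1 + m.2.2.1 2 * I), 1000 * (m.2.2.1 3 + m.2.2.1 4 * I))

theorem ok (m : M) : Ok (co m) where
  on := by
    have h := (Set.ext_iff.1 (EuclideanSpace.sphere_zero_eq 1 zero_le_one) _).1 m.1.2
    rw [Set.mem_setOf_eq, Fin.sum_univ_three] at h
    simp only [co, Complex.sq_norm, normSq_add_mul_I]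
    linarith
  l0 := bump_nn _ _ _
  l1 := bump_le _ _ _
  t0 := bump_nn _ _ _
  t1 := bump_le _ _ _
  x0 := bump_nn _ _ _
  x1 := bump_le _ _ _

noncomputable def kk : ℝ := (1 / 5) ^ 10 * (1 / 2) ^ 256

noncomputable def adv (m : M) : ℝ := zn aa m.2.1 +
  kk * (bb (co m).2.1 * (co m).2.1) / 8 + (1 - m.2.2.1 5) / 8

noncomputable def ff (m : M) : M :=
  (⟨out1 (co m), (ok m).out1_mem⟩, m.2.1 * Circle.exp (π / 20 * adv m),
    ⟨out3 (co m), (ok m).out3_mem⟩)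

end Vale.Agent.P103
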