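import Vale.Agent.P103.Map

/-!
The map is `C¹`.
-/

open Complex Real Metric
open scoped ComplexConjugate Manifold

namespace Vale.Agent.P103

theorem cd_arg {g : ℝ → ℝ} (hg : ContDiff ℝ 1 g) {c : ℝ} (hc : ∀ u, 13 ≤ |u| → g u = c) {x : ℂ}
    (hx : x ≠ 0) : ContDiffAt ℝ 1 (fun z : ℂ => g (arg z * (20 / π))) x := by
  by_cases h : x ∈ slitPlane
  · have := (cd_im.contDiffAt.comp x ((Complex.contDiffAt_log h).restrict_scalars ℝ))
    exact hg.contDiffAt.comp x (ContDiffAt.mul (by simpa [Function.comp_def, log_im] using this)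
      contDiffAt_const)
  · have h1 : x.re < -‖x‖ / 2 := by
      simp only [mem_slitPlane_iff, not_or, not_lt, not_not] at h
      have h2 : ‖x‖ = |x.re| := (abs_re_eq_norm.2 h.2).symm
      have := norm_pos_iff.2 hx
      rw [abs_of_nonpos h.1] at h2
      linarith
    refine (contDiffAt_const (c := c)).congr_of_eventuallyEq ?_
    filter_upwards [(isOpen_lt continuous_re (by fun_prop : Continuous fun z : ℂ =>
      -‖z‖ / 2)).mem_nhds h1] with z hz
    refine hc _ ?_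
    have h0 : z ≠ 0 := by
      rintro rfl
      simp at hz
    have h2 := norm_pos_iff.2 h0
    have h3 : π - π / 3 ≤ |arg z| := by
      by_contra h3
      have := cos_le_cos_of_nonneg_of_le_pi (abs_nonneg _) (by linarith [pi_pos]) (not_le.1 h3).le
      rw [Real.cos_pi_sub, cos_pi_div_three, Real.cos_abs, cos_arg h0, le_div_iff₀ h2] at this
      linarith
    rw [abs_mul, abs_of_pos (by positivity : 0 < 20 / π), ← mul_div_assoc, le_div_iff₀ pi_pos]
    linarith [pi_pos]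

noncomputable abbrev IM := (𝓡 2).prod ((𝓡 1).prod (𝓡 5))

theorem cm_zn {g : ℝ → ℝ} (hg : ContDiff ℝ 1 g) {c : ℝ} (hc : ∀ u, 13 ≤ |u| → g u = c) :
    ContMDiff IM 𝓘(ℝ, ℝ) 1 fun m : M => zn g m.2.1 := fun m =>
  haveI : Fact (Module.finrank ℝ ℂ = 1 + 1) := ⟨by simp⟩
  (cd_arg hg hc m.2.1.coe_ne_zero).comp_contMDiffAt (f := fun m : M => (m.2.1 : ℂ))
    ((contMDiff_coe_sphere (n := 1)).comp (contMDiff_fst.comp contMDiff_snd) m)

theorem cm_bump {a b : ℝ} (ha : -13 ≤ a) (hb : b ≤ 13) :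
    ContMDiff IM 𝓘(ℝ, ℝ) 1 fun m : M => zn (bump a b) m.2.1 :=
  cm_zn (by unfold bump; fun_prop) (c := 0) fun u hu =>
    bump0 ((le_abs.1 hu).symm.imp (fun h => by linarith) fun h => by linarith)

theorem cm1 : ContMDiff IM 𝓘(ℝ, E 3) 1 fun m : M => m.1.1 :=
  haveI := Fact.mk (@finrank_euclideanSpace_fin ℝ _ (2 + 1))
  (contMDiff_coe_sphere (E := E (2 + 1)) (n := 2)).comp contMDiff_fst

theorem cm3 : ContMDiff IM 𝓘(ℝ, E 6) 1 fun m : M => m.2.2.1 :=
  haveI := Fact.mk (@finrank_euclideanSpace_fin ℝ _ (5 + 1))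
  (contMDiff_coe_sphere (E := E (5 + 1)) (n := 5)).comp (contMDiff_snd.comp contMDiff_snd)

theorem cm_co : ContMDiff IM 𝓘(ℝ, A) 1 co := by
  refine (ContDiff.comp_contMDiff (g := fun x : E 3 => (x 0 + x 1 * I : ℂ)) (by fun_prop)
    cm1).prodMk_space ((ContDiff.comp_contMDiff (g := fun x : E 3 => 1 - x 2) (by fun_prop)
    cm1).prodMk_space (((cm_bump ?_ ?_).prodMk_space ((cm_bump ?_ ?_).prodMk_space
    (cm_bump ?_ ?_))).prodMk_space (ContDiff.comp_contMDiff (g := fun x : E 6 =>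
      ((1000 * x 0 : ℝ), (1000 * (x 1 + x 2 * I) : ℂ), (1000 * (x 3 + x 4 * I) : ℂ)))
      (by fun_prop) cm3))) <;> norm_num

theorem cm_adv : ContMDiff IM 𝓘(ℝ, ℝ) 1 adv :=
  ((cm_zn (by unfold aa; fun_prop) fun _ h => aa1 (by linarith)).add
    (ContDiff.comp_contMDiff (g := fun a : A => kk * (bb a.2.1 * a.2.1) / 8)
      (by fun_prop) cm_co)).add
    (ContDiff.comp_contMDiff (g := fun x : E 6 => (1 - x 5) / 8) (by fun_prop) cm3)

theorem cm_ff : ContMDiff IM IM 1 ff := by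
  haveI := Fact.mk (@finrank_euclideanSpace_fin ℝ _ (2 + 1))
  haveI := Fact.mk (@finrank_euclideanSpace_fin ℝ _ (5 + 1))
  refine (ContMDiff.codRestrict_sphere (E := E (2 + 1)) (n := 2)
    (fun m => (cd_out1 (ok m).den_pos.ne').comp_contMDiffAt (cm_co m)) fun m => (ok m).out1_mem).prodMk (ContMDiff.prodMk ?_
    (ContMDiff.codRestrict_sphere (E := E (5 + 1)) (n := 5)
    (fun m => (cd_out3 (ok m).rr_lt).comp_contMDiffAt (cm_co m)) fun m => (ok m).out3_mem))
  exact (contMDiff_fst.comp contMDiff_snd).mul (contMDiff_circleExp.comp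
    (ContDiff.comp_contMDiff (g := fun x : ℝ => π / 20 * x) (by fun_prop) cm_adv))

end Vale.Agent.P103
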